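import Vale.Agent.P074.Defs

open MeasureTheory Set Metric Filter Topology
open scoped ENNReal NNReal

namespace Vale.Agent.P074.Lower

open Vale.Agent.P074

variable {d : ℕ}

/-- `x` is a Lebesgue point of `f` for families of (not necessarily centred) balls
`closedBall (w δ) δ` with `x ∈ closedBall (w δ) (N δ)`. -/
def LebPt (f : EuclideanSpace ℝ (Fin d) → EuclideanSpace ℝ (Fin d)) (N : ℕ)
    (x : EuclideanSpace ℝ (Fin d)) : Prop :=
  ∀ w : ℝ → EuclideanSpace ℝ (Fin d), (∀ᶠ δ in 𝓝[>] (0 : ℝ), x ∈ closedBall (w δ) (N * δ)) →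
    Tendsto (fun δ => ⨍ y in closedBall (w δ) δ, f y) (𝓝[>] (0 : ℝ)) (𝓝 (f x))

theorem ae_lebPt (f : EuclideanSpace ℝ (Fin d) → EuclideanSpace ℝ (Fin d))
    (hf : LocallyIntegrable f volume) : ∀ᵐ x, ∀ N : ℕ, LebPt f N x := by
  rw [ae_all_iff]
  intro N
  filter_upwards [IsUnifLocDoublingMeasure.ae_tendsto_average (μ := volume) hf (N : ℝ)] with x hx
  intro w hw
  exact hx w (fun δ => δ) tendsto_id hw

theorem natCast_fin_le {n : ℕ} (i : Fin (n + 1)) : ((i : ℕ) : ℝ) ≤ n := by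
  exact_mod_cast Nat.lt_succ_iff.mp i.2

/-- The centres used for a (possibly repeating) family of points: `x i + 3 i δ e`. -/
noncomputable def centre {n : ℕ} (x : Fin (n + 1) → EuclideanSpace ℝ (Fin d))
    (e : EuclideanSpace ℝ (Fin d)) (δ : ℝ) (i : Fin (n + 1)) : EuclideanSpace ℝ (Fin d) :=
  x i + (3 * (i : ℕ) * δ) • e

theorem eventually_disjoint_centre {n : ℕ} (x : Fin (n + 1) → EuclideanSpace ℝ (Fin d))
    (e : EuclideanSpace ℝ (Fin d)) (he : ‖e‖ = 1) :
    ∀ᶠ δ in 𝓝[>] (0 : ℝ), Pairwise fun i j =>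
      Disjoint (closedBall (centre x e δ i) δ) (closedBall (centre x e δ j) δ) := by
  have key : ∀ i j : Fin (n + 1), i ≠ j → ∀ᶠ δ in 𝓝[>] (0 : ℝ),
      Disjoint (closedBall (centre x e δ i) δ) (closedBall (centre x e δ j) δ) := by
    intro i j hij
    have hdiff : ∀ δ : ℝ, centre x e δ i - centre x e δ j
        = (x i - x j) + (3 * (((i : ℕ) : ℝ) - ((j : ℕ) : ℝ)) * δ) • e := by
      intro δ
      unfold centre
      have : (3 * (((i : ℕ) : ℝ) - ((j : ℕ) : ℝ)) * δ) • e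
          = (3 * ((i : ℕ) : ℝ) * δ) • e - (3 * ((j : ℕ) : ℝ) * δ) • e := by
        rw [← sub_smul]
        congr 1
        ring
      rw [this]
      abel
    have hne : (1 : ℝ) ≤ |((i : ℕ) : ℝ) - ((j : ℕ) : ℝ)| := by
      have h1 : ((i : ℕ) : ℤ) - ((j : ℕ) : ℤ) ≠ 0 := by
        intro h
        apply hij
        apply Fin.ext
        omega
      have h2 : (1 : ℤ) ≤ |((i : ℕ) : ℤ) - ((j : ℕ) : ℤ)| := Int.one_le_abs h1
      exact_mod_cast h2
    have hle : |((i : ℕ) : ℝ) - ((j : ℕ) : ℝ)| ≤ n := by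
      have hi := natCast_fin_le i
      have hj := natCast_fin_le j
      have hi0 : (0 : ℝ) ≤ ((i : ℕ) : ℝ) := Nat.cast_nonneg _
      have hj0 : (0 : ℝ) ≤ ((j : ℕ) : ℝ) := Nat.cast_nonneg _
      rw [abs_le]
      constructor <;> linarith
    by_cases hx : x i = x j
    · filter_upwards [self_mem_nhdsWithin] with δ hδ
      have hδ' : (0 : ℝ) < δ := hδ
      apply closedBall_disjoint_closedBall
      rw [dist_eq_norm, hdiff, hx, sub_self, zero_add, norm_smul, he, mul_one, Real.norm_eq_abs,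
        abs_mul, abs_mul, abs_of_pos hδ']
      have : |(3 : ℝ)| = 3 := by norm_num
      rw [this]
      nlinarith
    · have hD : 0 < ‖x i - x j‖ := norm_pos_iff.mpr (sub_ne_zero.mpr hx)
      have hc : 0 < ‖x i - x j‖ / (3 * n + 3) := by positivity
      filter_upwards [Ioo_mem_nhdsGT hc] with δ hδ
      have hδ' : (0 : ℝ) < δ := hδ.1
      have hδ2 : δ * (3 * n + 3) < ‖x i - x j‖ := (lt_div_iff₀ (by positivity)).mp hδ.2
      apply closedBall_disjoint_closedBall
      rw [dist_eq_norm, hdiff]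
      have h1 : ‖(3 * (((i : ℕ) : ℝ) - ((j : ℕ) : ℝ)) * δ) • e‖ ≤ 3 * n * δ := by
        rw [norm_smul, he, mul_one, Real.norm_eq_abs, abs_mul, abs_mul, abs_of_pos hδ']
        have : |(3 : ℝ)| = 3 := by norm_num
        rw [this]
        nlinarith
      have h2 : ‖x i - x j‖ - ‖(3 * (((i : ℕ) : ℝ) - ((j : ℕ) : ℝ)) * δ) • e‖
          ≤ ‖(x i - x j) + (3 * (((i : ℕ) : ℝ) - ((j : ℕ) : ℝ)) * δ) • e‖ := by
        have := norm_sub_norm_le (x i - x j) (-((3 * (((i : ℕ) : ℝ) - ((j : ℕ) : ℝ)) * δ) • e))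
        rwa [norm_neg, sub_neg_eq_add] at this
      nlinarith
  have key2 : ∀ᶠ δ in 𝓝[>] (0 : ℝ), ∀ i j : Fin (n + 1), i ≠ j →
      Disjoint (closedBall (centre x e δ i) δ) (closedBall (centre x e δ j) δ) := by
    rw [eventually_all]
    intro i
    rw [eventually_all]
    intro j
    by_cases hij : i = j
    · exact Eventually.of_forall fun δ h => absurd hij h
    · filter_upwards [key i j hij] with δ hδ _ using hδ
  filter_upwards [key2] with δ hδ i j hij using hδ i j hij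

theorem eventually_subset_centre {n : ℕ} (x : Fin (n + 1) → EuclideanSpace ℝ (Fin d))
    (e : EuclideanSpace ℝ (Fin d)) (he : ‖e‖ = 1) (K : Set (EuclideanSpace ℝ (Fin d)))
    (hx : ∀ i, x i ∈ interior K) :
    ∀ᶠ δ in 𝓝[>] (0 : ℝ), ∀ i, closedBall (centre x e δ i) δ ⊆ K := by
  rw [eventually_all]
  intro i
  obtain ⟨r, hr, hrK⟩ := Metric.isOpen_iff.mp isOpen_interior (x i) (hx i)
  have hc : 0 < r / (3 * n + 1) := by positivity
  filter_upwards [Ioo_mem_nhdsGT hc] with δ hδ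
  have hδ' : (0 : ℝ) < δ := hδ.1
  have hδ2 : δ * (3 * n + 1) < r := (lt_div_iff₀ (by positivity)).mp hδ.2
  intro y hy
  apply interior_subset
  apply hrK
  rw [mem_ball]
  have h1 : dist (centre x e δ i) (x i) ≤ 3 * n * δ := by
    unfold centre
    rw [dist_eq_norm, add_sub_cancel_left, norm_smul, he, mul_one, Real.norm_eq_abs,
      abs_of_nonneg (by positivity)]
    have := natCast_fin_le i
    nlinarith
  have h2 : dist y (centre x e δ i) ≤ δ := hy
  calc dist y (x i) ≤ dist y (centre x e δ i) + dist (centre x e δ i) (x i) := dist_triangle _ _ _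
    _ ≤ δ + 3 * n * δ := add_le_add h2 h1
    _ = δ * (3 * n + 1) := by ring
    _ < r := hδ2

theorem mem_closedBall_centre {n : ℕ} (x : Fin (n + 1) → EuclideanSpace ℝ (Fin d))
    (e : EuclideanSpace ℝ (Fin d)) (he : ‖e‖ = 1) (i : Fin (n + 1)) (δ : ℝ) (hδ : 0 < δ) :
    x i ∈ closedBall (centre x e δ i) ((3 * n : ℕ) * δ) := by
  rw [mem_closedBall, dist_comm]
  unfold centre
  rw [dist_eq_norm, add_sub_cancel_left, norm_smul, he, mul_one, Real.norm_eq_abs,
    abs_of_nonneg (by positivity)]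
  have := natCast_fin_le i
  push_cast
  nlinarith

theorem tendsto_centre {n : ℕ} (x : Fin (n + 1) → EuclideanSpace ℝ (Fin d))
    (e : EuclideanSpace ℝ (Fin d)) (i : Fin (n + 1)) :
    Tendsto (fun δ => centre x e δ i) (𝓝[>] (0 : ℝ)) (𝓝 (x i)) := by
  apply tendsto_nhdsWithin_of_tendsto_nhds
  have hc : Continuous (fun δ : ℝ => centre x e δ i) := by
    unfold centre
    fun_prop
  have h0 : centre x e 0 i = x i := by
    unfold centre
    simp
  have := hc.tendsto 0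
  rwa [h0] at this

/-- Algebra: the quadratic terms telescope around the cycle. -/
theorem cyc_algebra {n : ℕ} (x : Fin (n + 1) → EuclideanSpace ℝ (Fin d))
    (T : EuclideanSpace ℝ (Fin d) → EuclideanSpace ℝ (Fin d))
    (h : ∑ i, (2 * inner ℝ (x (i + 1) - T (x (i + 1))) (x (i + 1) - x i)
      - ‖x (i + 1) - x i‖ ^ 2) ≤ 0) :
    0 ≤ ∑ i, inner ℝ (T (x (i + 1))) (x (i + 1) - x i) := by
  have hterm : ∀ i : Fin (n + 1), 2 * inner ℝ (x (i + 1) - T (x (i + 1))) (x (i + 1) - x i)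
      - ‖x (i + 1) - x i‖ ^ 2
      = (‖x (i + 1)‖ ^ 2 - ‖x i‖ ^ 2) - 2 * inner ℝ (T (x (i + 1))) (x (i + 1) - x i) := by
    intro i
    rw [inner_sub_left, norm_sub_sq_real, inner_sub_right, real_inner_self_eq_norm_sq]
    ring
  have htel : ∑ i : Fin (n + 1), (‖x (i + 1)‖ ^ 2 - ‖x i‖ ^ 2) = 0 := by
    rw [Finset.sum_sub_distrib, sub_eq_zero]
    exact Equiv.sum_comp (Equiv.addRight (1 : Fin (n + 1))) (fun i => ‖x i‖ ^ 2)
  rw [Finset.sum_congr rfl (fun i _ => hterm i), Finset.sum_sub_distrib, htel, zero_sub,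
    ← Finset.mul_sum] at h
  linarith

/-- Reversing the orientation of a cycle. -/
theorem cyc_reverse {n : ℕ} (x : Fin (n + 1) → EuclideanSpace ℝ (Fin d))
    (T : EuclideanSpace ℝ (Fin d) → EuclideanSpace ℝ (Fin d))
    (h : 0 ≤ ∑ i : Fin (n + 1), inner ℝ (T (x (-(i + 1)))) (x (-(i + 1)) - x (-i))) :
    ∑ i, inner ℝ (T (x i)) (x (i + 1) - x i) ≤ 0 := by
  have e := Equiv.sum_comp ((Equiv.addRight (1 : Fin (n + 1))).trans (Equiv.neg (Fin (n + 1))))
    (fun j => inner ℝ (T (x j)) (x j - x (j + 1)))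
  have hterm : ∀ i : Fin (n + 1),
      inner ℝ (T (x (((Equiv.addRight (1 : Fin (n + 1))).trans (Equiv.neg (Fin (n + 1)))) i)))
        (x (((Equiv.addRight (1 : Fin (n + 1))).trans (Equiv.neg (Fin (n + 1)))) i)
          - x (((Equiv.addRight (1 : Fin (n + 1))).trans (Equiv.neg (Fin (n + 1)))) i + 1))
      = inner ℝ (T (x (-(i + 1)))) (x (-(i + 1)) - x (-i)) := by
    intro i
    have h1 : ((Equiv.addRight (1 : Fin (n + 1))).trans (Equiv.neg (Fin (n + 1)))) i = -(i + 1) :=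
      rfl
    have h2 : -(i + 1) + 1 = -i := by abel
    rw [h1, h2]
  rw [Finset.sum_congr rfl (fun i _ => hterm i)] at e
  rw [e] at h
  have hneg : ∑ j : Fin (n + 1), inner ℝ (T (x j)) (x j - x (j + 1))
      = - ∑ j : Fin (n + 1), inner ℝ (T (x j)) (x (j + 1) - x j) := by
    rw [← Finset.sum_neg_distrib]
    refine Finset.sum_congr rfl fun j _ => ?_
    rw [← inner_neg_right, neg_sub]
  rw [hneg] at h
  linarith

end Vale.Agent.P074.Lower
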