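import Mathlib

open MeasureTheory Set Metric
open scoped ENNReal NNReal

namespace Vale.Agent.P074.Lower

variable {d : ℕ}

/-- The Legendre conjugate of `φ` relative to `K`: `sup_{x ∈ K} (<x, y> - φ x)`. -/
noncomputable def conj (K : Set (EuclideanSpace ℝ (Fin d))) (φ : EuclideanSpace ℝ (Fin d) → ℝ)
    (y : EuclideanSpace ℝ (Fin d)) : ℝ :=
  ⨆ x : K, (inner ℝ (x : EuclideanSpace ℝ (Fin d)) y - φ x)

theorem conj_bddAbove (K : Set (EuclideanSpace ℝ (Fin d))) (hK : IsCompact K)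
    (φ : EuclideanSpace ℝ (Fin d) → ℝ) (hφ : Continuous φ) (y : EuclideanSpace ℝ (Fin d)) :
    BddAbove (range fun x : K => inner ℝ (x : EuclideanSpace ℝ (Fin d)) y - φ x) := by
  have hc : Continuous fun x : EuclideanSpace ℝ (Fin d) => inner ℝ x y - φ x :=
    (continuous_id.inner continuous_const).sub hφ
  have := hK.bddAbove_image hc.continuousOn
  rwa [image_eq_range] at this

/-- Young's inequality. -/
theorem le_conj (K : Set (EuclideanSpace ℝ (Fin d))) (hK : IsCompact K)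
    (φ : EuclideanSpace ℝ (Fin d) → ℝ) (hφ : Continuous φ) (x y : EuclideanSpace ℝ (Fin d))
    (hx : x ∈ K) : inner ℝ x y - φ x ≤ conj K φ y :=
  le_ciSup (conj_bddAbove K hK φ hφ y) (⟨x, hx⟩ : K)

/-- Equality in Young's inequality at a subgradient. -/
theorem conj_eq_of_subgradient (K : Set (EuclideanSpace ℝ (Fin d))) (hK : IsCompact K)
    (φ : EuclideanSpace ℝ (Fin d) → ℝ) (hφ : Continuous φ) (x y : EuclideanSpace ℝ (Fin d))
    (hx : x ∈ K) (hsub : ∀ x' ∈ K, φ x + inner ℝ y (x' - x) ≤ φ x') :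
    conj K φ y = inner ℝ x y - φ x := by
  refine le_antisymm ?_ (le_conj K hK φ hφ x y hx)
  have : Nonempty K := ⟨⟨x, hx⟩⟩
  refine ciSup_le fun x' => ?_
  have h := hsub x' x'.2
  rw [inner_sub_right, real_inner_comm, real_inner_comm x y] at h
  linarith

theorem conj_le_add (K : Set (EuclideanSpace ℝ (Fin d))) (hK : IsCompact K) (hne : K.Nonempty)
    (φ : EuclideanSpace ℝ (Fin d) → ℝ) (hφ : Continuous φ) (RK : ℝ) (hRK : ∀ x ∈ K, ‖x‖ ≤ RK)
    (y z : EuclideanSpace ℝ (Fin d)) : conj K φ y ≤ conj K φ z + RK * ‖y - z‖ := by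
  have : Nonempty K := hne.to_subtype
  refine ciSup_le fun x => ?_
  have h1 := le_conj K hK φ hφ x z x.2
  have h2 : inner ℝ (x : EuclideanSpace ℝ (Fin d)) (y - z) ≤ RK * ‖y - z‖ :=
    (real_inner_le_norm _ _).trans (mul_le_mul_of_nonneg_right (hRK x x.2) (norm_nonneg _))
  rw [inner_sub_right] at h2
  linarith

/-- The conjugate relative to `K` is Lipschitz with constant `max_K |x|`. -/
theorem conj_lipschitz (K : Set (EuclideanSpace ℝ (Fin d))) (hK : IsCompact K) (hne : K.Nonempty)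
    (φ : EuclideanSpace ℝ (Fin d) → ℝ) (hφ : Continuous φ) (RK : ℝ) (hRK : ∀ x ∈ K, ‖x‖ ≤ RK)
    (y z : EuclideanSpace ℝ (Fin d)) : |conj K φ y - conj K φ z| ≤ RK * ‖y - z‖ := by
  have h1 := conj_le_add K hK hne φ hφ RK hRK y z
  have h2 := conj_le_add K hK hne φ hφ RK hRK z y
  rw [norm_sub_rev] at h2
  rw [abs_le]
  constructor <;> linarith

end Vale.Agent.P074.Lower
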