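import Vale.Agent.P074.Defs

open MeasureTheory Set Metric
open scoped ENNReal NNReal

namespace Vale.Agent.P074.Lower

open Vale.Agent.P074

variable {d : ℕ}

/-- Optimising a bound `E ≤ a w / s + b s` (`0 < s < 1`) together with `E ≤ m`. -/
theorem optimise_param (E a b m w : ℝ) (ha : 0 ≤ a) (hb : 0 ≤ b) (hm : 0 ≤ m) (hw : 0 ≤ w)
    (hE : E ≤ m) (h : ∀ s : ℝ, 0 < s → s < 1 → E ≤ a * w / s + b * s) :
    E ≤ (a + b + m) * Real.sqrt w := by
  have hsq0 : 0 ≤ Real.sqrt w := Real.sqrt_nonneg w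
  rcases le_or_gt 1 w with h1 | h1
  · have hs1 : 1 ≤ Real.sqrt w := by
      rw [show (1:ℝ) = Real.sqrt 1 by simp]
      exact Real.sqrt_le_sqrt h1
    nlinarith
  · rcases hw.eq_or_lt with h0 | h0
    · subst h0
      simp only [Real.sqrt_zero, mul_zero]
      apply le_of_forall_pos_le_add
      intro ε hε
      have hb1 : 0 < b + 1 := by linarith
      have hs0 : 0 < min (1 / 2) (ε / (b + 1)) := lt_min (by norm_num) (div_pos hε hb1)
      have hs1 : min (1 / 2) (ε / (b + 1)) < 1 := lt_of_le_of_lt (min_le_left _ _) (by norm_num)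
      have := h _ hs0 hs1
      have h2 : b * min (1 / 2) (ε / (b + 1)) ≤ b * (ε / (b + 1)) :=
        mul_le_mul_of_nonneg_left (min_le_right _ _) hb
      have h3 : b * (ε / (b + 1)) ≤ ε := by
        rw [← mul_div_assoc, div_le_iff₀ hb1]
        nlinarith
      simp only [mul_zero, zero_div, zero_add] at this ⊢
      linarith
    · have hs0 : 0 < Real.sqrt w := Real.sqrt_pos.mpr h0
      have hs1 : Real.sqrt w < 1 := by
        rw [show (1:ℝ) = Real.sqrt 1 by simp]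
        exact Real.sqrt_lt_sqrt hw h1
      have := h _ hs0 hs1
      have hdiv : a * w / Real.sqrt w = a * Real.sqrt w := by
        rw [mul_div_assoc, Real.div_sqrt]
      rw [hdiv] at this
      nlinarith

/-- Jensen / Cauchy-Schwarz for a probability measure, in extended nonnegative form. -/
theorem lintegral_le_sqrt_lintegral_sq {α : Type*} [MeasurableSpace α] (π : Measure α)
    [IsProbabilityMeasure π] (f : α → ℝ) (hf : Measurable f) (hf0 : ∀ a, 0 ≤ f a) :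
    ∫⁻ p, ENNReal.ofReal (f p) ∂π ≤ (∫⁻ p, ENNReal.ofReal (f p ^ 2) ∂π) ^ (1 / 2 : ℝ) := by
  have h := ENNReal.lintegral_mul_le_Lp_mul_Lq π Real.HolderConjugate.two_two
    (f := fun p => ENNReal.ofReal (f p)) (g := fun _ => 1)
    hf.ennreal_ofReal.aemeasurable aemeasurable_const
  simp only [Pi.mul_apply, mul_one, ENNReal.one_rpow, lintegral_const, measure_univ] at h
  refine h.trans (le_of_eq ?_)
  congr 1
  apply lintegral_congr
  intro p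
  rw [ENNReal.ofReal_rpow_of_nonneg (hf0 p) (by norm_num)]
  norm_num

/-- the square root of the mean distance is at most the fourth root of the mean square -/
theorem ofReal_sqrt_integral_le {α : Type*} [MeasurableSpace α] (π : Measure α)
    [IsProbabilityMeasure π] (f : α → ℝ) (hf : Measurable f) (hf0 : ∀ a, 0 ≤ f a) :
    ENNReal.ofReal (Real.sqrt (∫ p, f p ∂π)) ≤
      (∫⁻ p, ENNReal.ofReal (f p ^ 2) ∂π) ^ (1 / 4 : ℝ) := by
  have h4 : ENNReal.ofReal (∫ p, f p ∂π) ≤ ∫⁻ p, ENNReal.ofReal (f p) ∂π := by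
    rw [integral_eq_lintegral_of_nonneg_ae (ae_of_all _ hf0) hf.aestronglyMeasurable]
    exact ENNReal.ofReal_toReal_le
  have h0 : 0 ≤ ∫ p, f p ∂π := integral_nonneg hf0
  rw [Real.sqrt_eq_rpow, ← ENNReal.ofReal_rpow_of_nonneg h0 (by norm_num)]
  calc ENNReal.ofReal (∫ p, f p ∂π) ^ (1 / 2 : ℝ)
      ≤ ((∫⁻ p, ENNReal.ofReal (f p ^ 2) ∂π) ^ (1 / 2 : ℝ)) ^ (1 / 2 : ℝ) :=
        ENNReal.rpow_le_rpow (h4.trans (lintegral_le_sqrt_lintegral_sq π f hf hf0)) (by norm_num)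
    _ = (∫⁻ p, ENNReal.ofReal (f p ^ 2) ∂π) ^ (1 / 4 : ℝ) := by
        rw [← ENNReal.rpow_mul]
        norm_num

/-- From the real `L¹` estimate to the extended-real `L²` estimate for one coupling. -/
theorem l2_of_l1 (K : Set (EuclideanSpace ℝ (Fin d))) (hKm : MeasurableSet K) (hK0 : volume K ≠ 0)
    (hKfin : volume K ≠ ∞) (RY C : ℝ) (hRY : 0 ≤ RY) (hC : 0 ≤ C)
    (T S : EuclideanSpace ℝ (Fin d) → EuclideanSpace ℝ (Fin d)) (hT : Measurable T)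
    (hS : Measurable S)
    (hTY : ∀ᵐ x ∂(volume.restrict K), ‖T x‖ ≤ RY) (hSY : ∀ᵐ x ∂(volume.restrict K), ‖S x‖ ≤ RY)
    (π : Measure (EuclideanSpace ℝ (Fin d) × EuclideanSpace ℝ (Fin d))) [IsProbabilityMeasure π]
    (hπ : ∀ᵐ p ∂π, ‖p.1‖ ≤ RY ∧ ‖p.2‖ ≤ RY)
    (h : ∫ x in K, ‖T x - S x‖ ≤ C * Real.sqrt (∫ p, ‖p.1 - p.2‖ ∂π)) :
    ∫⁻ x, ENNReal.ofReal (‖T x - S x‖ ^ 2) ∂(unif K) ≤
      ENNReal.ofReal (2 * RY * C * (volume K).toReal⁻¹) *
        (∫⁻ p, ENNReal.ofReal (‖p.1 - p.2‖ ^ 2) ∂π) ^ (1 / 4 : ℝ) := by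
  have hmeas : Measurable (fun x => ‖T x - S x‖) := (hT.sub hS).norm
  have hbd : ∀ᵐ x ∂(volume.restrict K), ‖T x - S x‖ ≤ 2 * RY := by
    filter_upwards [hTY, hSY] with x h1 h2
    calc ‖T x - S x‖ ≤ ‖T x‖ + ‖S x‖ := norm_sub_le _ _
      _ ≤ 2 * RY := by linarith
  have hL : ∫⁻ x, ENNReal.ofReal (‖T x - S x‖ ^ 2) ∂(unif K) =
      (volume K)⁻¹ * ∫⁻ x in K, ENNReal.ofReal (‖T x - S x‖ ^ 2) := by
    unfold unif
    rw [lintegral_smul_measure, smul_eq_mul]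
  have h2 : ∫⁻ x in K, ENNReal.ofReal (‖T x - S x‖ ^ 2) ≤
      ENNReal.ofReal (2 * RY) * ∫⁻ x in K, ENNReal.ofReal ‖T x - S x‖ := by
    rw [← lintegral_const_mul _ hmeas.ennreal_ofReal]
    apply lintegral_mono_ae
    filter_upwards [hbd] with x hx
    rw [← ENNReal.ofReal_mul (by positivity)]
    apply ENNReal.ofReal_le_ofReal
    nlinarith [norm_nonneg (T x - S x)]
  have hint : IntegrableOn (fun x => ‖T x - S x‖) K := by
    refine Measure.integrableOn_of_bounded (M := 2 * RY) hKfin hmeas.aestronglyMeasurable ?_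
    filter_upwards [hbd] with x hx
    simpa using hx
  have h3 : ∫⁻ x in K, ENNReal.ofReal ‖T x - S x‖ = ENNReal.ofReal (∫ x in K, ‖T x - S x‖) :=
    (ofReal_integral_eq_lintegral_ofReal hint (ae_of_all _ (fun x => norm_nonneg _))).symm
  have hfm : Measurable (fun p : EuclideanSpace ℝ (Fin d) × EuclideanSpace ℝ (Fin d) =>
      ‖p.1 - p.2‖) := (measurable_fst.sub measurable_snd).norm
  have h5 := ofReal_sqrt_integral_le π _ hfm (fun p => norm_nonneg _)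
  have h6 : ENNReal.ofReal (∫ x in K, ‖T x - S x‖) ≤ ENNReal.ofReal C *
      (∫⁻ p, ENNReal.ofReal (‖p.1 - p.2‖ ^ 2) ∂π) ^ (1 / 4 : ℝ) := by
    calc ENNReal.ofReal (∫ x in K, ‖T x - S x‖)
        ≤ ENNReal.ofReal (C * Real.sqrt (∫ p, ‖p.1 - p.2‖ ∂π)) := ENNReal.ofReal_le_ofReal h
      _ = ENNReal.ofReal C * ENNReal.ofReal (Real.sqrt (∫ p, ‖p.1 - p.2‖ ∂π)) :=
          ENNReal.ofReal_mul hC
      _ ≤ _ := mul_le_mul_right h5 _
  have hvol : ENNReal.ofReal ((volume K).toReal⁻¹) = (volume K)⁻¹ := by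
    rw [ENNReal.ofReal_inv_of_pos (ENNReal.toReal_pos hK0 hKfin), ENNReal.ofReal_toReal hKfin]
  have hconst : ENNReal.ofReal (2 * RY * C * (volume K).toReal⁻¹) =
      (volume K)⁻¹ * (ENNReal.ofReal (2 * RY) * ENNReal.ofReal C) := by
    rw [ENNReal.ofReal_mul (by positivity), ENNReal.ofReal_mul (by positivity), hvol, mul_comm]
  rw [hL, hconst, mul_assoc, mul_assoc]
  refine mul_le_mul_right ?_ _
  refine h2.trans ?_
  rw [h3]
  exact mul_le_mul_right h6 _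

/-- Passing to the infimum over couplings. -/
theorem le_mul_iInf_rpow {ι : Type*} (J : ℝ≥0∞) (C : ℝ≥0) (hC : 0 < C) (I : ι → ℝ≥0∞)
    (h : ∀ i, J ≤ C * I i ^ (1 / 4 : ℝ)) :
    J ^ (1 / 2 : ℝ) ≤ ((C ^ (1 / 2 : ℝ) : ℝ≥0) : ℝ≥0∞) * ((⨅ i, I i) ^ (1 / 2 : ℝ)) ^ (1 / 4 : ℝ) := by
  have hC0 : (C : ℝ≥0∞) ≠ 0 := by
    exact_mod_cast hC.ne'
  have hCt : (C : ℝ≥0∞) ≠ ∞ := ENNReal.coe_ne_top
  have h1 : ∀ i, (J / C) ^ (4 : ℝ) ≤ I i := by
    intro i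
    have h2 : J / C ≤ I i ^ (1 / 4 : ℝ) := by
      rw [ENNReal.div_le_iff_le_mul (Or.inl hC0) (Or.inl hCt), mul_comm]
      exact h i
    calc (J / C) ^ (4 : ℝ) ≤ (I i ^ (1 / 4 : ℝ)) ^ (4 : ℝ) :=
          ENNReal.rpow_le_rpow h2 (by norm_num)
      _ = I i := by
          rw [← ENNReal.rpow_mul]
          norm_num
  have h3 : (J / C) ^ (4 : ℝ) ≤ ⨅ i, I i := le_iInf h1
  have h4 : J / C ≤ (⨅ i, I i) ^ (1 / 4 : ℝ) := by
    calc J / C = ((J / C) ^ (4 : ℝ)) ^ (1 / 4 : ℝ) := by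
          rw [← ENNReal.rpow_mul]
          norm_num
      _ ≤ (⨅ i, I i) ^ (1 / 4 : ℝ) := ENNReal.rpow_le_rpow h3 (by norm_num)
  have h5 : J ≤ C * (⨅ i, I i) ^ (1 / 4 : ℝ) := by
    rw [ENNReal.div_le_iff_le_mul (Or.inl hC0) (Or.inl hCt), mul_comm] at h4
    exact h4
  calc J ^ (1 / 2 : ℝ) ≤ (C * (⨅ i, I i) ^ (1 / 4 : ℝ)) ^ (1 / 2 : ℝ) :=
        ENNReal.rpow_le_rpow h5 (by norm_num)
    _ = ((C ^ (1 / 2 : ℝ) : ℝ≥0) : ℝ≥0∞) * ((⨅ i, I i) ^ (1 / 2 : ℝ)) ^ (1 / 4 : ℝ) := by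
        rw [ENNReal.mul_rpow_of_nonneg _ _ (by norm_num : (0:ℝ) ≤ 1 / 2),
          ENNReal.coe_rpow_of_nonneg _ (by norm_num : (0:ℝ) ≤ 1 / 2),
          ← ENNReal.rpow_mul, ← ENNReal.rpow_mul]
        norm_num

end Vale.Agent.P074.Lower
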