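import Vale.Agent.P074.Lower.Conjugate

open MeasureTheory Set Metric
open scoped ENNReal NNReal

namespace Vale.Agent.P074.Lower

variable {d : ℕ}

/-- The duality gap `ψ*(T x) + ψ(x) - <x, T x>` of the potential `ψ` along the map `T`. -/
noncomputable def gap (K : Set (EuclideanSpace ℝ (Fin d))) (ψ : EuclideanSpace ℝ (Fin d) → ℝ)
    (T : EuclideanSpace ℝ (Fin d) → EuclideanSpace ℝ (Fin d)) (x : EuclideanSpace ℝ (Fin d)) : ℝ :=
  conj K ψ (T x) + ψ x - inner ℝ x (T x)

theorem continuous_of_lip (ψ : EuclideanSpace ℝ (Fin d) → ℝ) (R : ℝ)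
    (hψ : ∀ x y, |ψ x - ψ y| ≤ R * ‖x - y‖) : Continuous ψ := by
  have h : LipschitzWith R.toNNReal ψ := by
    refine LipschitzWith.of_dist_le_mul fun x y => ?_
    rw [Real.dist_eq, dist_eq_norm]
    exact (hψ x y).trans
      (mul_le_mul_of_nonneg_right (Real.le_coe_toNNReal R) (norm_nonneg _))
  exact h.continuous

theorem gap_nonneg (K : Set (EuclideanSpace ℝ (Fin d))) (hK : IsCompact K)
    (ψ : EuclideanSpace ℝ (Fin d) → ℝ) (hψ : Continuous ψ)
    (T : EuclideanSpace ℝ (Fin d) → EuclideanSpace ℝ (Fin d)) (x : EuclideanSpace ℝ (Fin d))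
    (hx : x ∈ K) : 0 ≤ gap K ψ T x := by
  have h := le_conj K hK ψ hψ x (T x) hx
  unfold gap
  linarith

theorem continuous_conj (K : Set (EuclideanSpace ℝ (Fin d))) (hK : IsCompact K) (hne : K.Nonempty)
    (ψ : EuclideanSpace ℝ (Fin d) → ℝ) (hψ : Continuous ψ) : Continuous (conj K ψ) := by
  obtain ⟨RK, hRK⟩ := hK.isBounded.exists_norm_le
  exact continuous_of_lip _ RK (conj_lipschitz K hK hne ψ hψ RK hRK)

theorem measurable_gap (K : Set (EuclideanSpace ℝ (Fin d))) (hK : IsCompact K) (hne : K.Nonempty)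
    (ψ : EuclideanSpace ℝ (Fin d) → ℝ) (hψ : Continuous ψ)
    (T : EuclideanSpace ℝ (Fin d) → EuclideanSpace ℝ (Fin d)) (hT : Measurable T) :
    Measurable (gap K ψ T) := by
  unfold gap
  exact (((continuous_conj K hK hne ψ hψ).measurable.comp hT).add hψ.measurable).sub
    (measurable_id.inner hT)

/-- The gap is bounded on `K` when `T` is bounded there, hence integrable. -/
theorem integrableOn_gap (K : Set (EuclideanSpace ℝ (Fin d))) (hK : IsCompact K)
    (hne : K.Nonempty)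
    (ψ : EuclideanSpace ℝ (Fin d) → ℝ) (hψ : Continuous ψ)
    (T : EuclideanSpace ℝ (Fin d) → EuclideanSpace ℝ (Fin d)) (hT : Measurable T) (RY : ℝ)
    (hTY : ∀ᵐ x ∂(volume.restrict K), ‖T x‖ ≤ RY) :
    IntegrableOn (gap K ψ T) K := by
  obtain ⟨RK, hRK⟩ := hK.isBounded.exists_norm_le
  obtain ⟨M, hM⟩ := hK.exists_bound_of_continuousOn hψ.continuousOn
  have hRK0 : 0 ≤ RK := by
    obtain ⟨x, hx⟩ := hne
    exact (norm_nonneg x).trans (hRK x hx)
  refine Measure.integrableOn_of_bounded (M := |conj K ψ 0| + RK * RY + M + RK * RY)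
    hK.measure_lt_top.ne (measurable_gap K hK hne ψ hψ T hT).aestronglyMeasurable ?_
  filter_upwards [hTY, ae_restrict_mem hK.measurableSet] with x hx hxK
  have h1 : |conj K ψ (T x)| ≤ |conj K ψ 0| + RK * RY := by
    have h := conj_lipschitz K hK hne ψ hψ RK hRK (T x) 0
    rw [sub_zero] at h
    have h2 : |conj K ψ (T x)| ≤ |conj K ψ 0| + |conj K ψ (T x) - conj K ψ 0| := by
      have := abs_add_le (conj K ψ 0) (conj K ψ (T x) - conj K ψ 0)
      simpa using this
    have h3 : RK * ‖T x‖ ≤ RK * RY := mul_le_mul_of_nonneg_left hx hRK0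
    linarith
  have h2 : |ψ x| ≤ M := by simpa using hM x hxK
  have h3 : |inner ℝ x (T x)| ≤ RK * RY :=
    (abs_real_inner_le_norm _ _).trans
      (mul_le_mul (hRK x hxK) hx (norm_nonneg _) hRK0)
  rw [Real.norm_eq_abs]
  unfold gap
  calc |conj K ψ (T x) + ψ x - inner ℝ x (T x)|
      ≤ |conj K ψ (T x) + ψ x| + |inner ℝ x (T x)| := abs_sub _ _
    _ ≤ |conj K ψ (T x)| + |ψ x| + |inner ℝ x (T x)| := by
        have := abs_add_le (conj K ψ (T x)) (ψ x)
        linarith
    _ ≤ |conj K ψ 0| + RK * RY + M + RK * RY := by linarith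

/-- The two gaps add up to `f (T x) - f (S x)` with `f = ψ* - φ*`. -/
theorem gap_add_gap (K : Set (EuclideanSpace ℝ (Fin d))) (hK : IsCompact K)
    (φ ψ : EuclideanSpace ℝ (Fin d) → ℝ) (hφ : Continuous φ) (hψ : Continuous ψ)
    (T S : EuclideanSpace ℝ (Fin d) → EuclideanSpace ℝ (Fin d)) (x : EuclideanSpace ℝ (Fin d))
    (hx : x ∈ K)
    (hφsub : ∀ x', φ x + inner ℝ (T x) (x' - x) ≤ φ x')
    (hψsub : ∀ x', ψ x + inner ℝ (S x) (x' - x) ≤ ψ x') :
    gap K ψ T x + gap K φ S x =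
      (conj K ψ (T x) - conj K φ (T x)) - (conj K ψ (S x) - conj K φ (S x)) := by
  have h1 := conj_eq_of_subgradient K hK φ hφ x (T x) hx (fun x' _ => hφsub x')
  have h2 := conj_eq_of_subgradient K hK ψ hψ x (S x) hx (fun x' _ => hψsub x')
  unfold gap
  rw [h1, h2]
  ring

end Vale.Agent.P074.Lower
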