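import Vale.Agent.P074.Defs
import Vale.Agent.P074.Lower.Gap

open MeasureTheory Set Metric
open scoped ENNReal NNReal

namespace Vale.Agent.P074.Lower

open Vale.Agent.P074

variable {d : ℕ}

/-- a Lipschitz function composed with an a.e. bounded measurable map is integrable -/
theorem integrable_lip_comp (ρ : Measure (EuclideanSpace ℝ (Fin d))) [IsProbabilityMeasure ρ]
    (T : EuclideanSpace ℝ (Fin d) → EuclideanSpace ℝ (Fin d)) (hT : Measurable T) (RY : ℝ)
    (hTY : ∀ᵐ x ∂ρ, ‖T x‖ ≤ RY)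
    (f : EuclideanSpace ℝ (Fin d) → ℝ) (L : ℝ) (hL : 0 ≤ L)
    (hf : ∀ y z, |f y - f z| ≤ L * ‖y - z‖) : Integrable (f ∘ T) ρ := by
  have hfc : Continuous f := continuous_of_lip f L hf
  refine Integrable.of_bound (hfc.measurable.comp hT).aestronglyMeasurable (|f 0| + L * RY) ?_
  filter_upwards [hTY] with x hx
  have h := hf (T x) 0
  rw [sub_zero] at h
  have h2 : |f (T x)| ≤ |f 0| + |f (T x) - f 0| := by
    have := abs_add_le (f 0) (f (T x) - f 0)
    simpa using this
  have h3 : L * ‖T x‖ ≤ L * RY := mul_le_mul_of_nonneg_left hx hL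
  rw [Real.norm_eq_abs]
  simp only [Function.comp_apply]
  linarith

/-- Kantorovich-Rubinstein, easy direction, through an arbitrary coupling. -/
theorem coupling_bound (ρ : Measure (EuclideanSpace ℝ (Fin d))) [IsProbabilityMeasure ρ]
    (T S : EuclideanSpace ℝ (Fin d) → EuclideanSpace ℝ (Fin d)) (hT : Measurable T)
    (hS : Measurable S) (RY : ℝ)
    (hTY : ∀ᵐ x ∂ρ, ‖T x‖ ≤ RY) (hSY : ∀ᵐ x ∂ρ, ‖S x‖ ≤ RY)
    (f : EuclideanSpace ℝ (Fin d) → ℝ) (L : ℝ) (hL : 0 ≤ L) (hf : ∀ y z, |f y - f z| ≤ L * ‖y - z‖)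
    (π : Measure (EuclideanSpace ℝ (Fin d) × EuclideanSpace ℝ (Fin d)))
    (h1 : Measure.map Prod.fst π = Measure.map T ρ)
    (h2 : Measure.map Prod.snd π = Measure.map S ρ) :
    ∫ x, (f (T x) - f (S x)) ∂ρ ≤ L * ∫ p, ‖p.1 - p.2‖ ∂π := by
  have hfc : Continuous f := continuous_of_lip f L hf
  have hnl : ∀ y z : EuclideanSpace ℝ (Fin d), |‖y‖ - ‖z‖| ≤ 1 * ‖y - z‖ := fun y z => by
    rw [one_mul]; exact abs_norm_sub_norm_le y z
  -- integrability with respect to `ρ`
  have iT : Integrable (f ∘ T) ρ := integrable_lip_comp ρ T hT RY hTY f L hL hf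
  have iS : Integrable (f ∘ S) ρ := integrable_lip_comp ρ S hS RY hSY f L hL hf
  have nT : Integrable ((fun y => ‖y‖) ∘ T) ρ :=
    integrable_lip_comp ρ T hT RY hTY _ 1 zero_le_one hnl
  have nS : Integrable ((fun y => ‖y‖) ∘ S) ρ :=
    integrable_lip_comp ρ S hS RY hSY _ 1 zero_le_one hnl
  -- transfer to `π`
  have tr1 : ∀ g : EuclideanSpace ℝ (Fin d) → ℝ, Continuous g → Integrable (g ∘ T) ρ →
      Integrable (g ∘ Prod.fst) π := by
    intro g hg hi
    have a1 : Integrable g (Measure.map T ρ) :=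
      (integrable_map_measure hg.aestronglyMeasurable hT.aemeasurable).2 hi
    rw [← h1] at a1
    exact (integrable_map_measure hg.aestronglyMeasurable measurable_fst.aemeasurable).1 a1
  have tr2 : ∀ g : EuclideanSpace ℝ (Fin d) → ℝ, Continuous g → Integrable (g ∘ S) ρ →
      Integrable (g ∘ Prod.snd) π := by
    intro g hg hi
    have a1 : Integrable g (Measure.map S ρ) :=
      (integrable_map_measure hg.aestronglyMeasurable hS.aemeasurable).2 hi
    rw [← h2] at a1
    exact (integrable_map_measure hg.aestronglyMeasurable measurable_snd.aemeasurable).1 a1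
  have jT := tr1 f hfc iT
  have jS := tr2 f hfc iS
  have mT := tr1 _ continuous_norm nT
  have mS := tr2 _ continuous_norm nS
  have eT : ∫ x, f (T x) ∂ρ = ∫ p, f p.1 ∂π := by
    rw [← integral_map hT.aemeasurable hfc.aestronglyMeasurable, ← h1,
      integral_map measurable_fst.aemeasurable hfc.aestronglyMeasurable]
  have eS : ∫ x, f (S x) ∂ρ = ∫ p, f p.2 ∂π := by
    rw [← integral_map hS.aemeasurable hfc.aestronglyMeasurable, ← h2,
      integral_map measurable_snd.aemeasurable hfc.aestronglyMeasurable]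
  have hnorm : Integrable (fun p : EuclideanSpace ℝ (Fin d) × EuclideanSpace ℝ (Fin d) =>
      ‖p.1 - p.2‖) π := by
    refine Integrable.mono' (mT.add mS) (by fun_prop) (ae_of_all _ fun p => ?_)
    rw [norm_norm]
    exact norm_sub_le _ _
  have e0 : ∫ x, (f (T x) - f (S x)) ∂ρ = ∫ x, f (T x) ∂ρ - ∫ x, f (S x) ∂ρ :=
    integral_sub iT iS
  have e1 : ∫ p, f p.1 ∂π - ∫ p, f p.2 ∂π = ∫ p, (f p.1 - f p.2) ∂π :=
    (integral_sub jT jS).symm
  rw [e0, eT, eS, e1, ← integral_const_mul]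
  refine integral_mono (jT.sub jS) (hnorm.const_mul L) fun p => ?_
  exact (le_abs_self _).trans (hf p.1 p.2)

/-- Integrals against `unif K` are normalised integrals over `K`. -/
theorem integral_unif (K : Set (EuclideanSpace ℝ (Fin d)))
    (g : EuclideanSpace ℝ (Fin d) → ℝ) :
    ∫ x, g x ∂(unif K) = (volume K).toReal⁻¹ * ∫ x in K, g x := by
  unfold unif
  rw [integral_smul_measure, ENNReal.toReal_inv, smul_eq_mul]

theorem isProbabilityMeasure_unif (K : Set (EuclideanSpace ℝ (Fin d))) (hK0 : volume K ≠ 0)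
    (hKfin : volume K ≠ ∞) : IsProbabilityMeasure (unif K) := by
  constructor
  unfold unif
  rw [Measure.smul_apply, Measure.restrict_apply MeasurableSet.univ, univ_inter, smul_eq_mul]
  exact ENNReal.inv_mul_cancel hK0 hKfin

theorem ae_unif_iff (K : Set (EuclideanSpace ℝ (Fin d))) (hK0 : volume K ≠ 0)
    (hKfin : volume K ≠ ∞) (p : EuclideanSpace ℝ (Fin d) → Prop) :
    (∀ᵐ x ∂(unif K), p x) ↔ ∀ᵐ x ∂(volume.restrict K), p x := by
  unfold unif
  have hc : (volume K)⁻¹ ≠ 0 := ENNReal.inv_ne_zero.2 hKfin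
  rw [ae_iff, ae_iff, Measure.smul_apply, smul_eq_mul, mul_eq_zero]
  exact ⟨fun h => h.resolve_left hc, fun h => Or.inr h⟩

/-- The integrated gap is controlled by the transport cost of any coupling. -/
theorem gap_integral_le (K : Set (EuclideanSpace ℝ (Fin d))) (hKc : IsCompact K)
    (hK0 : volume K ≠ 0) (RK RY : ℝ) (hRK : ∀ x ∈ K, ‖x‖ ≤ RK)
    (T S : EuclideanSpace ℝ (Fin d) → EuclideanSpace ℝ (Fin d)) (hT : Measurable T)
    (hS : Measurable S)
    (hTY : ∀ᵐ x ∂(volume.restrict K), ‖T x‖ ≤ RY) (hSY : ∀ᵐ x ∂(volume.restrict K), ‖S x‖ ≤ RY)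
    (φ ψ : EuclideanSpace ℝ (Fin d) → ℝ) (hφ : Continuous φ) (hψ : Continuous ψ)
    (hφsub : ∀ᵐ x ∂(volume.restrict K), ∀ x', φ x + inner ℝ (T x) (x' - x) ≤ φ x')
    (hψsub : ∀ᵐ x ∂(volume.restrict K), ∀ x', ψ x + inner ℝ (S x) (x' - x) ≤ ψ x')
    (π : Measure (EuclideanSpace ℝ (Fin d) × EuclideanSpace ℝ (Fin d)))
    (h1 : Measure.map Prod.fst π = Measure.map T (unif K))
    (h2 : Measure.map Prod.snd π = Measure.map S (unif K)) :
    ∫ x in K, gap K ψ T x ≤ (volume K).toReal * (2 * RK * ∫ p, ‖p.1 - p.2‖ ∂π) := by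
  have hKfin : volume K ≠ ∞ := hKc.measure_lt_top.ne
  have hne : K.Nonempty := by
    rcases K.eq_empty_or_nonempty with h | h
    · exact absurd (by rw [h]; simp) hK0
    · exact h
  have hRK0 : 0 ≤ RK := by
    obtain ⟨x, hx⟩ := hne
    exact (norm_nonneg x).trans (hRK x hx)
  have := isProbabilityMeasure_unif K hK0 hKfin
  set f : EuclideanSpace ℝ (Fin d) → ℝ := fun y => conj K ψ y - conj K φ y with hf
  have hfl : ∀ y z, |f y - f z| ≤ (2 * RK) * ‖y - z‖ := by
    intro y z
    have a1 := conj_lipschitz K hKc hne ψ hψ RK hRK y z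
    have a2 := conj_lipschitz K hKc hne φ hφ RK hRK y z
    have e : f y - f z = (conj K ψ y - conj K ψ z) - (conj K φ y - conj K φ z) := by
      simp only [hf]; ring
    rw [e]
    have := abs_sub (conj K ψ y - conj K ψ z) (conj K φ y - conj K φ z)
    linarith
  have hcb := coupling_bound (unif K) T S hT hS RY
    ((ae_unif_iff K hK0 hKfin _).2 hTY) ((ae_unif_iff K hK0 hKfin _).2 hSY) f (2 * RK)
    (by positivity) hfl π h1 h2
  rw [integral_unif] at hcb
  have hv : 0 < (volume K).toReal := ENNReal.toReal_pos hK0 hKfin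
  have hint : ∫ x in K, (f (T x) - f (S x)) ≤
      (volume K).toReal * (2 * RK * ∫ p, ‖p.1 - p.2‖ ∂π) := by
    rw [inv_mul_le_iff₀ hv] at hcb
    exact hcb
  refine le_trans ?_ hint
  have i1 := integrableOn_gap K hKc hne ψ hψ T hT RY hTY
  have i2 := integrableOn_gap K hKc hne φ hφ S hS RY hSY
  have hae : ∀ᵐ x ∂(volume.restrict K), gap K ψ T x + gap K φ S x = f (T x) - f (S x) := by
    filter_upwards [hφsub, hψsub, ae_restrict_mem hKc.measurableSet] with x a1 a2 hx
    exact gap_add_gap K hKc φ ψ hφ hψ T S x hx a1 a2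
  have i3 : Integrable (fun x => f (T x) - f (S x)) (volume.restrict K) :=
    (i1.add i2).congr hae
  refine integral_mono_ae i1 i3 ?_
  filter_upwards [hae, ae_restrict_mem hKc.measurableSet] with x hx hxK
  rw [← hx]
  have := gap_nonneg K hKc φ hφ S x hxK
  linarith

end Vale.Agent.P074.Lower
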