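import Mathlib

open MeasureTheory Set Metric
open scoped ENNReal NNReal

namespace Vale.Agent.P074.Lower

variable {d : ℕ}

/-- Cyclic monotonicity of `T` on `G` (indices in `Fin (n+1)`, where `i + 1` wraps around). -/
def CycMono (G : Set (EuclideanSpace ℝ (Fin d)))
    (T : EuclideanSpace ℝ (Fin d) → EuclideanSpace ℝ (Fin d)) : Prop :=
  ∀ (n : ℕ) (x : Fin (n + 1) → EuclideanSpace ℝ (Fin d)), (∀ i, x i ∈ G) →
    ∑ i, inner ℝ (T (x i)) (x (i + 1) - x i) ≤ 0

/-- values of chains `x0 → g₁ → ... → g_m → x` with all `g_i ∈ G` -/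
inductive ChainVal (G : Set (EuclideanSpace ℝ (Fin d)))
    (T : EuclideanSpace ℝ (Fin d) → EuclideanSpace ℝ (Fin d)) (x0 : EuclideanSpace ℝ (Fin d)) :
    EuclideanSpace ℝ (Fin d) → ℝ → Prop
  | base (x : EuclideanSpace ℝ (Fin d)) : ChainVal G T x0 x (inner ℝ (T x0) (x - x0))
  | step (g x : EuclideanSpace ℝ (Fin d)) (a : ℝ) (hg : g ∈ G) (h : ChainVal G T x0 g a) :
      ChainVal G T x0 x (a + inner ℝ (T g) (x - g))

theorem closed_chain_le {G : Set (EuclideanSpace ℝ (Fin d))}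
    {T : EuclideanSpace ℝ (Fin d) → EuclideanSpace ℝ (Fin d)} (hcyc : CycMono G T)
    (m : ℕ) (c : ℕ → EuclideanSpace ℝ (Fin d)) (hc : ∀ i ≤ m, c i ∈ G)
    (hclose : c (m + 1) = c 0) :
    ∑ i ∈ Finset.range (m + 1), inner ℝ (T (c i)) (c (i + 1) - c i) ≤ 0 := by
  have h := hcyc m (fun i => c i) (fun i => hc i (Nat.lt_succ_iff.1 i.2))
  have e : ∀ i : Fin (m + 1), c ((i + 1 : Fin (m + 1)) : ℕ) = c ((i : ℕ) + 1) := by
    intro i
    rcases eq_or_lt_of_le (Fin.le_last i) with hi | hi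
    · subst hi
      rw [Fin.last_add_one]
      simp only [Fin.val_zero, Fin.val_last]
      exact hclose.symm
    · rw [Fin.val_add_one_of_lt hi]
  simp only [e] at h
  rw [← Fin.sum_univ_eq_sum_range (fun i => inner ℝ (T (c i)) (c (i + 1) - c i)) (m + 1)]
  exact h

theorem chainVal_exists_seq {G : Set (EuclideanSpace ℝ (Fin d))}
    {T : EuclideanSpace ℝ (Fin d) → EuclideanSpace ℝ (Fin d)} {x0 : EuclideanSpace ℝ (Fin d)}
    (hx0 : x0 ∈ G) {x : EuclideanSpace ℝ (Fin d)} {a : ℝ} (h : ChainVal G T x0 x a) :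
    ∃ (m : ℕ) (c : ℕ → EuclideanSpace ℝ (Fin d)), c 0 = x0 ∧ c (m + 1) = x ∧
      (∀ i ≤ m, c i ∈ G) ∧
      a = ∑ i ∈ Finset.range (m + 1), inner ℝ (T (c i)) (c (i + 1) - c i) := by
  induction h with
  | base x =>
    refine ⟨0, fun i => if i = 0 then x0 else x, by simp, by simp, ?_, by simp⟩
    intro i hi
    have : i = 0 := by omega
    subst this
    simpa using hx0
  | step g x a hg _ ih =>
    obtain ⟨m, c, h0, h1, hG, hs⟩ := ih
    refine ⟨m + 1, Function.update c (m + 2) x, ?_, ?_, ?_, ?_⟩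
    · rw [Function.update_of_ne (by omega)]; exact h0
    · simp
    · intro i hi
      rw [Function.update_of_ne (by omega)]
      rcases Nat.lt_or_ge i (m + 1) with h | h
      · exact hG i (by omega)
      · have : i = m + 1 := by omega
        subst this
        rw [h1]; exact hg
    · rw [Finset.sum_range_succ _ (m + 1)]
      have e1 : ∑ i ∈ Finset.range (m + 1),
          inner ℝ (T (Function.update c (m + 2) x i))
            (Function.update c (m + 2) x (i + 1) - Function.update c (m + 2) x i)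
          = ∑ i ∈ Finset.range (m + 1), inner ℝ (T (c i)) (c (i + 1) - c i) := by
        refine Finset.sum_congr rfl fun i hi => ?_
        have hi' : i < m + 1 := Finset.mem_range.1 hi
        rw [Function.update_of_ne (by omega), Function.update_of_ne (by omega)]
      rw [e1, ← hs, Function.update_of_ne (by omega : m + 1 ≠ m + 2), h1]
      simp

theorem chainVal_closed_le {G : Set (EuclideanSpace ℝ (Fin d))}
    {T : EuclideanSpace ℝ (Fin d) → EuclideanSpace ℝ (Fin d)} (hcyc : CycMono G T)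
    {x0 : EuclideanSpace ℝ (Fin d)} (hx0 : x0 ∈ G) {a : ℝ} (h : ChainVal G T x0 x0 a) :
    a ≤ 0 := by
  obtain ⟨m, c, h0, h1, hG, hs⟩ := chainVal_exists_seq hx0 h
  rw [hs]
  exact closed_chain_le hcyc m c hG (by rw [h0, h1])

theorem inner_le_of_bound {G : Set (EuclideanSpace ℝ (Fin d))}
    {T : EuclideanSpace ℝ (Fin d) → EuclideanSpace ℝ (Fin d)} {R : ℝ}
    (hR : ∀ x ∈ G, ‖T x‖ ≤ R) {g : EuclideanSpace ℝ (Fin d)} (hg : g ∈ G)
    (v : EuclideanSpace ℝ (Fin d)) : inner ℝ (T g) v ≤ R * ‖v‖ :=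
  (real_inner_le_norm _ _).trans (mul_le_mul_of_nonneg_right (hR g hg) (norm_nonneg _))

theorem chainVal_le {G : Set (EuclideanSpace ℝ (Fin d))}
    {T : EuclideanSpace ℝ (Fin d) → EuclideanSpace ℝ (Fin d)} {R : ℝ}
    (hR : ∀ x ∈ G, ‖T x‖ ≤ R) (hcyc : CycMono G T)
    {x0 : EuclideanSpace ℝ (Fin d)} (hx0 : x0 ∈ G) {x : EuclideanSpace ℝ (Fin d)} {a : ℝ}
    (h : ChainVal G T x0 x a) : a ≤ R * ‖x - x0‖ := by
  cases h with
  | base => exact inner_le_of_bound hR hx0 _
  | step g _ a' hg h' =>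
    have h1 := chainVal_closed_le hcyc hx0 (ChainVal.step g x0 a' hg h')
    have h2 := inner_le_of_bound hR hg (x - x0)
    have e : inner ℝ (T g) (x - g) = inner ℝ (T g) (x0 - g) + inner ℝ (T g) (x - x0) := by
      rw [← inner_add_right]; congr 1; abel
    rw [e]; linarith

theorem chainVal_move {G : Set (EuclideanSpace ℝ (Fin d))}
    {T : EuclideanSpace ℝ (Fin d) → EuclideanSpace ℝ (Fin d)} {R : ℝ}
    (hR : ∀ x ∈ G, ‖T x‖ ≤ R)
    {x0 : EuclideanSpace ℝ (Fin d)} (hx0 : x0 ∈ G) {x : EuclideanSpace ℝ (Fin d)} {a : ℝ}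
    (h : ChainVal G T x0 x a) (y : EuclideanSpace ℝ (Fin d)) :
    ∃ b, ChainVal G T x0 y b ∧ a ≤ b + R * ‖x - y‖ := by
  cases h with
  | base =>
    refine ⟨_, ChainVal.base y, ?_⟩
    have h2 := inner_le_of_bound hR hx0 (x - y)
    have e : inner ℝ (T x0) (x - x0) = inner ℝ (T x0) (y - x0) + inner ℝ (T x0) (x - y) := by
      rw [← inner_add_right]; congr 1; abel
    rw [e]; linarith
  | step g _ a' hg h' =>
    refine ⟨_, ChainVal.step g y a' hg h', ?_⟩
    have h2 := inner_le_of_bound hR hg (x - y)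
    have e : inner ℝ (T g) (x - g) = inner ℝ (T g) (y - g) + inner ℝ (T g) (x - y) := by
      rw [← inner_add_right]; congr 1; abel
    rw [e]; linarith

/-- Rockafellar: a bounded cyclically monotone map on a nonempty set `G` is a selection of the
subdifferential of a Lipschitz (convex) function. -/
theorem rockafellar (G : Set (EuclideanSpace ℝ (Fin d))) (hG : G.Nonempty)
    (T : EuclideanSpace ℝ (Fin d) → EuclideanSpace ℝ (Fin d)) (R : ℝ)
    (hR : ∀ x ∈ G, ‖T x‖ ≤ R) (hcyc : CycMono G T) :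
    ∃ φ : EuclideanSpace ℝ (Fin d) → ℝ, (∀ x y, |φ x - φ y| ≤ R * ‖x - y‖) ∧
      ∀ x ∈ G, ∀ x', φ x + inner ℝ (T x) (x' - x) ≤ φ x' := by
  obtain ⟨x0, hx0⟩ := hG
  set φ : EuclideanSpace ℝ (Fin d) → ℝ := fun x => sSup {a | ChainVal G T x0 x a} with hφ
  have hne : ∀ x, {a | ChainVal G T x0 x a}.Nonempty := fun x => ⟨_, ChainVal.base x⟩
  have hbdd : ∀ x, BddAbove {a | ChainVal G T x0 x a} := fun x =>
    ⟨R * ‖x - x0‖, fun a ha => chainVal_le hR hcyc hx0 ha⟩
  have hlip : ∀ x y, φ x ≤ φ y + R * ‖x - y‖ := by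
    intro x y
    refine csSup_le (hne x) fun a ha => ?_
    obtain ⟨b, hb, hab⟩ := chainVal_move hR hx0 ha y
    have : b ≤ φ y := le_csSup (hbdd y) hb
    linarith
  refine ⟨φ, fun x y => ?_, fun x hx x' => ?_⟩
  · rw [abs_le]
    have h1 := hlip x y
    have h2 := hlip y x
    rw [norm_sub_rev] at h2
    constructor <;> linarith
  · have : φ x ≤ φ x' - inner ℝ (T x) (x' - x) := by
      refine csSup_le (hne x) fun a ha => ?_
      have : a + inner ℝ (T x) (x' - x) ≤ φ x' :=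
        le_csSup (hbdd x') (ChainVal.step x x' a hx ha)
      linarith
    linarith

end Vale.Agent.P074.Lower
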