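import Vale.Agent.P074.Lower.SwapIneq
import Vale.Agent.P074.Lower.Centre
import Vale.Agent.P074.Lower.Rockafellar

open MeasureTheory Set Metric Filter Topology
open scoped ENNReal NNReal

namespace Vale.Agent.P074.Lower

open Vale.Agent.P074

variable {d : ℕ}

/-- Passing to the limit `δ → 0` in `swap_ineq_real` at Lebesgue points. -/
theorem limit_ineq {n : ℕ} (x : Fin (n + 1) → EuclideanSpace ℝ (Fin d))
    (e : EuclideanSpace ℝ (Fin d)) (he : ‖e‖ = 1)
    (K : Set (EuclideanSpace ℝ (Fin d))) (hKm : MeasurableSet K) (hK0 : volume K ≠ 0)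
    (hKfin : volume K ≠ ∞) (hx : ∀ i, x i ∈ interior K)
    (μ : Measure (EuclideanSpace ℝ (Fin d)))
    (T : EuclideanSpace ℝ (Fin d) → EuclideanSpace ℝ (Fin d)) (hT : IsOTMap (unif K) μ T)
    (f : EuclideanSpace ℝ (Fin d) → EuclideanSpace ℝ (Fin d)) (hfm : Measurable f) (M : ℝ)
    (hfM : ∀ u, ‖f u‖ ≤ M) (hf : ∀ᵐ u ∂(volume.restrict K), f u = u - T u)
    (hleb : ∀ i, LebPt f (3 * n) (x i)) :
    ∑ i, (2 * inner ℝ (f (x (i + 1))) (x (i + 1) - x i) - ‖x (i + 1) - x i‖ ^ 2) ≤ 0 := by
  have hlim : Tendsto (fun δ : ℝ => ∑ i, (2 * inner ℝ (⨍ u in closedBall (centre x e δ (i + 1)) δ, f u)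
      (centre x e δ (i + 1) - centre x e δ i) - ‖centre x e δ (i + 1) - centre x e δ i‖ ^ 2))
      (𝓝[>] (0 : ℝ))
      (𝓝 (∑ i, (2 * inner ℝ (f (x (i + 1))) (x (i + 1) - x i) - ‖x (i + 1) - x i‖ ^ 2))) := by
    apply tendsto_finsetSum
    intro i _
    have h1 := hleb (i + 1) (fun δ => centre x e δ (i + 1)) (by
      filter_upwards [self_mem_nhdsWithin] with δ hδ
      exact mem_closedBall_centre x e he (i + 1) δ hδ)
    have h2 := (tendsto_centre x e (i + 1)).sub (tendsto_centre x e i)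
    exact ((h1.inner h2).const_mul 2).sub (h2.norm.pow 2)
  apply le_of_tendsto hlim
  filter_upwards [eventually_disjoint_centre x e he, eventually_subset_centre x e he K hx,
    self_mem_nhdsWithin] with δ h1 h2 h3
  have h3' : 0 < δ := h3
  have key := swap_ineq_real (centre x e δ) δ h1 K hKm hK0 hKfin h2 μ T hT f hfm M hfM hf
  set v : ℝ := (volume (closedBall (0 : EuclideanSpace ℝ (Fin d)) δ)).toReal with hv
  have hvol : ∀ c : EuclideanSpace ℝ (Fin d), (volume (closedBall c δ)).toReal = v := by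
    intro c
    rw [hv, Measure.addHaar_closedBall_center]
  have hvpos : 0 < v := by
    rw [hv]
    exact ENNReal.toReal_pos (measure_closedBall_pos volume _ h3').ne'
      (measure_closedBall_lt_top).ne
  have hsum : ∑ i, (2 * inner ℝ (⨍ u in closedBall (centre x e δ (i + 1)) δ, f u)
      (centre x e δ (i + 1) - centre x e δ i) - ‖centre x e δ (i + 1) - centre x e δ i‖ ^ 2)
      = v⁻¹ * ∑ i, (2 * inner ℝ (∫ u in closedBall (centre x e δ (i + 1)) δ, f u)
        (centre x e δ (i + 1) - centre x e δ i)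
        - (volume (closedBall (centre x e δ (i + 1)) δ)).toReal
          * ‖centre x e δ (i + 1) - centre x e δ i‖ ^ 2) := by
    rw [Finset.mul_sum]
    refine Finset.sum_congr rfl fun i _ => ?_
    rw [setAverage_eq, measureReal_def, hvol, inner_smul_left]
    simp only [conj_trivial]
    field_simp
  rw [hsum]
  exact mul_nonpos_of_nonneg_of_nonpos (inv_nonneg.mpr hvpos.le) key


theorem volume_ne_zero_of_interior (K : Set (EuclideanSpace ℝ (Fin d)))
    (hKint : (interior K).Nonempty) : volume K ≠ 0 := by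
  have h := isOpen_interior.measure_pos volume hKint
  exact (lt_of_lt_of_le h (measure_mono interior_subset)).ne'

/-- The optimal map takes values in `Y` almost everywhere on `K`. -/
theorem volume_inter_preimage_compl (K : Set (EuclideanSpace ℝ (Fin d))) (hKfin : volume K ≠ ∞)
    (Y : Set (EuclideanSpace ℝ (Fin d))) (hY : MeasurableSet Y)
    (μ : Measure (EuclideanSpace ℝ (Fin d))) (hμY : μ Yᶜ = 0)
    (T : EuclideanSpace ℝ (Fin d) → EuclideanSpace ℝ (Fin d)) (hT : IsOTMap (unif K) μ T) :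
    volume (T ⁻¹' Yᶜ ∩ K) = 0 := by
  obtain ⟨hTm, hTmap, -⟩ := hT
  rw [← hTmap, Measure.map_apply hTm hY.compl, unif, Measure.smul_apply,
    Measure.restrict_apply (hTm hY.compl), smul_eq_mul] at hμY
  rcases mul_eq_zero.mp hμY with h | h
  · exact absurd (ENNReal.inv_eq_zero.mp h) hKfin
  · exact h

/-- An optimal map (among Borel maps) from the uniform measure on a convex body to a measure
carried by a compact set is cyclically monotone on a set of full measure. -/
theorem exists_cycMono (hd : 0 < d) (K : Set (EuclideanSpace ℝ (Fin d))) (hKc : IsCompact K)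
    (hKconv : Convex ℝ K) (hKint : (interior K).Nonempty)
    (Y : Set (EuclideanSpace ℝ (Fin d))) (hY : IsCompact Y)
    (μ : Measure (EuclideanSpace ℝ (Fin d))) (hμY : μ Yᶜ = 0)
    (T : EuclideanSpace ℝ (Fin d) → EuclideanSpace ℝ (Fin d)) (hT : IsOTMap (unif K) μ T) :
    ∃ G : Set (EuclideanSpace ℝ (Fin d)), G ⊆ K ∧ volume (K \ G) = 0 ∧ (∀ x ∈ G, T x ∈ Y) ∧
      CycMono G T := by
  have hTm : Measurable T := hT.1
  have hK0 : volume K ≠ 0 := volume_ne_zero_of_interior K hKint
  have hKfin : volume K ≠ ∞ := hKc.measure_lt_top.ne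
  set D : Set (EuclideanSpace ℝ (Fin d)) := K ∩ T ⁻¹' Y with hD
  have hDm : MeasurableSet D := hKc.measurableSet.inter (hTm hY.measurableSet)
  set f : EuclideanSpace ℝ (Fin d) → EuclideanSpace ℝ (Fin d) :=
    D.indicator (fun u => u - T u) with hfdef
  have hfm : Measurable f := (measurable_id.sub hTm).indicator hDm
  obtain ⟨RK, hRK⟩ := hKc.isBounded.exists_norm_le
  obtain ⟨RY, hRY⟩ := hY.isBounded.exists_norm_le
  have hfM : ∀ u, ‖f u‖ ≤ |RK| + |RY| := by
    intro u
    by_cases hu : u ∈ D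
    · rw [hfdef, indicator_of_mem hu]
      calc ‖u - T u‖ ≤ ‖u‖ + ‖T u‖ := norm_sub_le _ _
        _ ≤ RK + RY := add_le_add (hRK u hu.1) (hRY _ hu.2)
        _ ≤ |RK| + |RY| := add_le_add (le_abs_self _) (le_abs_self _)
    · rw [hfdef, indicator_of_notMem hu, norm_zero]
      positivity
  have hfD : ∀ u ∈ D, f u = u - T u := fun u hu => by rw [hfdef, indicator_of_mem hu]
  have hint : Integrable f volume := by
    have h1 : IntegrableOn (fun u => u - T u) D volume := by
      refine Measure.integrableOn_of_bounded (M := |RK| + |RY|) ?_ ?_ ?_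
      · exact (lt_of_le_of_lt (measure_mono inter_subset_left) hKc.measure_lt_top).ne
      · exact (measurable_id.sub hTm).aestronglyMeasurable
      · rw [ae_restrict_iff' hDm]
        refine Eventually.of_forall fun u hu => ?_
        rw [← hfD u hu]
        exact hfM u
    exact (integrable_indicator_iff hDm).mpr h1
  have hae := ae_lebPt f hint.locallyIntegrable
  have hbad := volume_inter_preimage_compl K hKfin Y hY.measurableSet μ hμY T hT
  have hf : ∀ᵐ u ∂(volume.restrict K), f u = u - T u := by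
    rw [ae_restrict_iff' hKc.measurableSet]
    have h2 : ∀ᵐ u, u ∉ T ⁻¹' Yᶜ ∩ K := measure_eq_zero_iff_ae_notMem.mp hbad
    filter_upwards [h2] with u hu huK
    refine hfD u ⟨huK, ?_⟩
    by_contra hc
    exact hu ⟨hc, huK⟩
  refine ⟨{x | x ∈ interior K ∧ T x ∈ Y ∧ ∀ N : ℕ, LebPt f N x}, fun x hx => interior_subset hx.1,
    ?_, fun x hx => hx.2.1, ?_⟩
  · have hsub : K \ {x | x ∈ interior K ∧ T x ∈ Y ∧ ∀ N : ℕ, LebPt f N x} ⊆
        frontier K ∪ (T ⁻¹' Yᶜ ∩ K) ∪ {x | ¬ ∀ N : ℕ, LebPt f N x} := by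
      rintro x ⟨hxK, hxG⟩
      by_cases h1 : x ∈ interior K
      · by_cases h2 : T x ∈ Y
        · right
          intro h3
          exact hxG ⟨h1, h2, h3⟩
        · left; right
          exact ⟨h2, hxK⟩
      · left; left
        exact ⟨subset_closure hxK, h1⟩
    refine measure_mono_null hsub ?_
    refine measure_union_null (measure_union_null (hKconv.addHaar_frontier volume) hbad) ?_
    exact ae_iff.mp hae
  · intro n x hx
    apply cyc_reverse
    have hx' : ∀ i : Fin (n + 1), x (-i) ∈ D := fun i =>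
      ⟨interior_subset (hx (-i)).1, (hx (-i)).2.1⟩
    have hlim := limit_ineq (fun i => x (-i)) (EuclideanSpace.single ⟨0, hd⟩ (1 : ℝ))
      (by simp) K hKc.measurableSet hK0 hKfin (fun i => (hx (-i)).1) μ T hT f hfm _ hfM hf
      (fun i => (hx (-i)).2.2 _)
    refine cyc_algebra (fun i => x (-i)) T ?_
    refine le_trans (le_of_eq ?_) hlim
    refine Finset.sum_congr rfl fun i _ => ?_
    rw [hfD _ (hx' (i + 1))]

/-- Brenier's structure theorem in the form needed here: an optimal map is almost everywhere a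
subgradient of a Lipschitz function which lies above all its supporting affine functions. -/
theorem exists_potential (hd : 0 < d) (K : Set (EuclideanSpace ℝ (Fin d))) (hKc : IsCompact K)
    (hKconv : Convex ℝ K) (hKint : (interior K).Nonempty)
    (Y : Set (EuclideanSpace ℝ (Fin d))) (hY : IsCompact Y) (RY : ℝ) (hRY : ∀ y ∈ Y, ‖y‖ ≤ RY)
    (μ : Measure (EuclideanSpace ℝ (Fin d))) (hμY : μ Yᶜ = 0)
    (T : EuclideanSpace ℝ (Fin d) → EuclideanSpace ℝ (Fin d)) (hT : IsOTMap (unif K) μ T) :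
    ∃ φ : EuclideanSpace ℝ (Fin d) → ℝ, (∀ x y, |φ x - φ y| ≤ RY * ‖x - y‖) ∧
      ∀ᵐ x ∂(volume.restrict K), T x ∈ Y ∧ ∀ x', φ x + inner ℝ (T x) (x' - x) ≤ φ x' := by
  obtain ⟨G, hGK, hG0, hGY, hcyc⟩ := exists_cycMono hd K hKc hKconv hKint Y hY μ hμY T hT
  have hK0 : volume K ≠ 0 := volume_ne_zero_of_interior K hKint
  have hGne : G.Nonempty := by
    by_contra hne
    rw [not_nonempty_iff_eq_empty] at hne
    rw [hne, sdiff_empty] at hG0
    exact hK0 hG0
  obtain ⟨φ, hφ1, hφ2⟩ := rockafellar G hGne T RY (fun x hx => hRY _ (hGY x hx)) hcyc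
  refine ⟨φ, hφ1, ?_⟩
  rw [ae_restrict_iff' hKc.measurableSet]
  have h2 : ∀ᵐ u, u ∉ K \ G := measure_eq_zero_iff_ae_notMem.mp hG0
  filter_upwards [h2] with u hu huK
  have huG : u ∈ G := by
    by_contra hc
    exact hu ⟨huK, hc⟩
  exact ⟨hGY u huG, hφ2 u huG⟩

end Vale.Agent.P074.Lower
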