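import Mathlib

open MeasureTheory Set Metric
open scoped ENNReal NNReal

namespace Vale.Agent.P074.Lower

variable {d : ℕ}

/-- The homothetic copy `c + (1 - s) (K - c)` of `K`. -/
def shrink (c : EuclideanSpace ℝ (Fin d)) (s : ℝ) (K : Set (EuclideanSpace ℝ (Fin d))) :
    Set (EuclideanSpace ℝ (Fin d)) :=
  (fun x => c + (1 - s) • (x - c)) '' K

theorem shrink_add_mem (K : Set (EuclideanSpace ℝ (Fin d))) (hK : Convex ℝ K)
    (c : EuclideanSpace ℝ (Fin d)) (r : ℝ) (hr : 0 < r) (hc : closedBall c r ⊆ K)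
    (s : ℝ) (hs0 : 0 < s) (hs1 : s < 1) (x : EuclideanSpace ℝ (Fin d)) (hx : x ∈ shrink c s K)
    (v : EuclideanSpace ℝ (Fin d)) (hv : ‖v‖ ≤ s * r) : x + v ∈ K := by
  obtain ⟨k, hk, rfl⟩ := hx
  have hmem : c + s⁻¹ • v ∈ K := by
    apply hc
    rw [mem_closedBall, dist_eq_norm, add_sub_cancel_left, norm_smul, norm_inv,
      Real.norm_of_nonneg hs0.le, inv_mul_le_iff₀ hs0]
    exact hv
  have hcomb := hK hk hmem (sub_nonneg.mpr hs1.le) hs0.le (by ring)
  have heq : (1 - s) • k + s • (c + s⁻¹ • v) = c + (1 - s) • (k - c) + v := by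
    rw [smul_add, smul_smul, mul_inv_cancel₀ hs0.ne', one_smul, smul_sub, sub_smul, sub_smul,
      one_smul, one_smul]
    abel
  rw [heq] at hcomb
  exact hcomb

theorem shrink_subset (K : Set (EuclideanSpace ℝ (Fin d))) (hK : Convex ℝ K)
    (c : EuclideanSpace ℝ (Fin d)) (r : ℝ) (hr : 0 < r) (hc : closedBall c r ⊆ K)
    (s : ℝ) (hs0 : 0 < s) (hs1 : s < 1) : shrink c s K ⊆ K := by
  intro x hx
  have := shrink_add_mem K hK c r hr hc s hs0 hs1 x hx 0 (by simpa using (mul_pos hs0 hr).le)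
  simpa using this

theorem isCompact_shrink (K : Set (EuclideanSpace ℝ (Fin d))) (hK : IsCompact K)
    (c : EuclideanSpace ℝ (Fin d)) (s : ℝ) : IsCompact (shrink c s K) := by
  apply hK.image
  fun_prop

theorem volume_shrink (K : Set (EuclideanSpace ℝ (Fin d)))
    (c : EuclideanSpace ℝ (Fin d)) (s : ℝ) (hs0 : 0 < s) (hs1 : s < 1) :
    volume (shrink c s K) = ENNReal.ofReal ((1 - s) ^ d) * volume K := by
  have hfun : (fun x : EuclideanSpace ℝ (Fin d) => c + (1 - s) • (x - c))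
      = AffineMap.homothety c (1 - s) := by
    funext x
    rw [AffineMap.homothety_apply, vsub_eq_sub, vadd_eq_add, add_comm]
  rw [shrink, hfun, Measure.addHaar_image_homothety, finrank_euclideanSpace_fin,
    abs_of_nonneg (pow_nonneg (sub_nonneg.mpr hs1.le) d)]

/-- The boundary layer `K \ shrink c s K` has volume at most `d s |K|`. -/
theorem volume_diff_shrink_le (K : Set (EuclideanSpace ℝ (Fin d))) (hKc : IsCompact K)
    (hK : Convex ℝ K)
    (c : EuclideanSpace ℝ (Fin d)) (r : ℝ) (hr : 0 < r) (hc : closedBall c r ⊆ K)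
    (s : ℝ) (hs0 : 0 < s) (hs1 : s < 1) :
    (volume (K \ shrink c s K)).toReal ≤ d * s * (volume K).toReal := by
  have hAK := shrink_subset K hK c r hr hc s hs0 hs1
  have hAm : MeasurableSet (shrink c s K) := (isCompact_shrink K hKc c s).measurableSet
  have hAfin : volume (shrink c s K) ≠ ∞ :=
    ((measure_mono hAK).trans_lt hKc.measure_lt_top).ne
  have hle : volume (shrink c s K) ≤ volume K := measure_mono hAK
  rw [measure_sdiff hAK hAm.nullMeasurableSet hAfin,
    ENNReal.toReal_sub_of_le hle hKc.measure_lt_top.ne, volume_shrink K c s hs0 hs1,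
    ENNReal.toReal_mul, ENNReal.toReal_ofReal (pow_nonneg (sub_nonneg.mpr hs1.le) d)]
  have hbern : 1 + (d : ℝ) * (-s) ≤ (1 + (-s)) ^ d :=
    one_add_mul_le_pow (by linarith) d
  have hV : 0 ≤ (volume K).toReal := ENNReal.toReal_nonneg
  have h1 : (1 - (1 - s) ^ d) ≤ d * s := by
    have : (1 + (-s)) = 1 - s := by ring
    rw [this] at hbern
    linarith
  nlinarith [mul_le_mul_of_nonneg_right h1 hV]

end Vale.Agent.P074.Lower
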