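import Vale.Agent.P074.Lower.Conjugate

open MeasureTheory Set Metric
open scoped ENNReal NNReal

namespace Vale.Agent.P074.Lower

variable {d : ℕ}

/-- One direction `e`: Young's inequality at `x ± t e` and the subgradient inequality at `x`. -/
theorem pointwise_dir (K : Set (EuclideanSpace ℝ (Fin d))) (ψ : EuclideanSpace ℝ (Fin d) → ℝ)
    (x p q e : EuclideanSpace ℝ (Fin d)) (t c : ℝ)
    (hplus : x + t • e ∈ K) (hminus : x - t • e ∈ K)
    (hsub : ∀ x', ψ x + inner ℝ q (x' - x) ≤ ψ x')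
    (hc : ∀ x' ∈ K, inner ℝ x' p - ψ x' ≤ c) :
    t * |inner ℝ e (p - q)| ≤
      (c + ψ x - inner ℝ x p) + (ψ (x + t • e) + ψ (x - t • e) - 2 * ψ x) := by
  have c1 := hc _ hplus
  have c2 := hc _ hminus
  have s1 := hsub (x + t • e)
  have s2 := hsub (x - t • e)
  have e1 : x + t • e - x = t • e := by abel
  have e2 : x - t • e - x = -(t • e) := by abel
  rw [e1, inner_smul_right, real_inner_comm] at s1
  rw [e2, inner_neg_right, inner_smul_right, real_inner_comm] at s2
  rw [inner_add_left, inner_smul_left] at c1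
  rw [inner_sub_left, inner_smul_left] at c2
  simp only [conj_trivial] at c1 c2
  rw [inner_sub_right]
  rcases abs_cases (inner ℝ e p - inner ℝ e q) with ⟨h, _⟩ | ⟨h, _⟩
  · rw [h]
    nlinarith
  · rw [h]
    nlinarith

/-- The Euclidean norm is at most the sum of the absolute values of the coordinates. -/
theorem norm_le_sum_abs_inner (v : EuclideanSpace ℝ (Fin d)) :
    ‖v‖ ≤ ∑ i : Fin d, |inner ℝ (EuclideanSpace.single i (1 : ℝ)) v| := by
  have h := (EuclideanSpace.basisFun (Fin d) ℝ).sum_repr v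
  calc ‖v‖ = ‖∑ i, (EuclideanSpace.basisFun (Fin d) ℝ).repr v i •
        (EuclideanSpace.basisFun (Fin d) ℝ) i‖ := by rw [h]
    _ ≤ ∑ i, ‖(EuclideanSpace.basisFun (Fin d) ℝ).repr v i •
        (EuclideanSpace.basisFun (Fin d) ℝ) i‖ := norm_sum_le _ _
    _ = ∑ i : Fin d, |inner ℝ (EuclideanSpace.single i (1 : ℝ)) v| := by
        refine Finset.sum_congr rfl fun i _ => ?_
        rw [norm_smul, EuclideanSpace.basisFun_apply, EuclideanSpace.norm_single,
          EuclideanSpace.inner_single_left]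
        simp

/-- Summing `pointwise_dir` over the coordinate directions. -/
theorem pointwise_norm (K : Set (EuclideanSpace ℝ (Fin d))) (ψ : EuclideanSpace ℝ (Fin d) → ℝ)
    (x p q : EuclideanSpace ℝ (Fin d)) (t c : ℝ) (ht : 0 ≤ t)
    (hball : ∀ v : EuclideanSpace ℝ (Fin d), ‖v‖ ≤ t → x + v ∈ K)
    (hsub : ∀ x', ψ x + inner ℝ q (x' - x) ≤ ψ x')
    (hc : ∀ x' ∈ K, inner ℝ x' p - ψ x' ≤ c) :
    t * ‖p - q‖ ≤ d * (c + ψ x - inner ℝ x p) +
      ∑ i : Fin d, (ψ (x + t • EuclideanSpace.single i (1 : ℝ))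
        + ψ (x - t • EuclideanSpace.single i (1 : ℝ)) - 2 * ψ x) := by
  have hn : ∀ i : Fin d, ‖t • (EuclideanSpace.single i (1 : ℝ) : EuclideanSpace ℝ (Fin d))‖ ≤ t := by
    intro i
    rw [norm_smul, EuclideanSpace.norm_single, Real.norm_eq_abs, abs_of_nonneg ht]
    simp
  have hdir : ∀ i : Fin d, t * |inner ℝ (EuclideanSpace.single i (1 : ℝ)) (p - q)| ≤
      (c + ψ x - inner ℝ x p) + (ψ (x + t • EuclideanSpace.single i (1 : ℝ))
        + ψ (x - t • EuclideanSpace.single i (1 : ℝ)) - 2 * ψ x) := by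
    intro i
    refine pointwise_dir K ψ x p q _ t c (hball _ (hn i)) ?_ hsub hc
    rw [sub_eq_add_neg]
    exact hball _ (by rw [norm_neg]; exact hn i)
  calc t * ‖p - q‖ ≤ t * ∑ i : Fin d, |inner ℝ (EuclideanSpace.single i (1 : ℝ)) (p - q)| :=
        mul_le_mul_of_nonneg_left (norm_le_sum_abs_inner _) ht
    _ = ∑ i : Fin d, t * |inner ℝ (EuclideanSpace.single i (1 : ℝ)) (p - q)| := Finset.mul_sum _ _ _
    _ ≤ ∑ i : Fin d, ((c + ψ x - inner ℝ x p) + (ψ (x + t • EuclideanSpace.single i (1 : ℝ))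
        + ψ (x - t • EuclideanSpace.single i (1 : ℝ)) - 2 * ψ x)) :=
        Finset.sum_le_sum fun i _ => hdir i
    _ = _ := by
        rw [Finset.sum_add_distrib, Finset.sum_const, Finset.card_univ, Fintype.card_fin,
          nsmul_eq_mul]

end Vale.Agent.P074.Lower
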