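import Mathlib

open MeasureTheory Set Metric
open scoped ENNReal NNReal

namespace Vale.Agent.P074.Lower

variable {d : ℕ}

theorem integrableOn_of_bdd (F : EuclideanSpace ℝ (Fin d) → ℝ) (hF : Measurable F) (M : ℝ)
    (hM : ∀ x, |F x| ≤ M) (A : Set (EuclideanSpace ℝ (Fin d))) (hAfin : volume A ≠ ∞) :
    IntegrableOn F A :=
  Measure.integrableOn_of_bounded hAfin hF.aestronglyMeasurable
    (Filter.Eventually.of_forall fun x => by rw [Real.norm_eq_abs]; exact hM x)

theorem abs_setIntegral_le (F : EuclideanSpace ℝ (Fin d) → ℝ) (M : ℝ)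
    (hM : ∀ x, |F x| ≤ M) (A : Set (EuclideanSpace ℝ (Fin d))) (hAfin : volume A ≠ ∞) :
    |∫ x in A, F x| ≤ M * (volume A).toReal := by
  have := norm_setIntegral_le_of_norm_le_const (μ := volume) (s := A) (f := F) (C := M)
    (lt_top_iff_ne_top.2 hAfin) (fun x _ => by rw [Real.norm_eq_abs]; exact hM x)
  rw [Real.norm_eq_abs] at this
  exact this

/-- Difference of the integrals of a bounded function over two sets of equal finite volume. -/
theorem setIntegral_sub_le (F : EuclideanSpace ℝ (Fin d) → ℝ) (hF : Measurable F) (M : ℝ)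
    (hM : ∀ x, |F x| ≤ M) (A B : Set (EuclideanSpace ℝ (Fin d))) (hA : MeasurableSet A)
    (hB : MeasurableSet B) (hAfin : volume A ≠ ∞) (hAB : volume A = volume B) :
    (∫ x in A, F x) - (∫ x in B, F x) ≤ 2 * M * (volume (B \ A)).toReal := by
  have hBfin : volume B ≠ ∞ := hAB ▸ hAfin
  have iA := integrableOn_of_bdd F hF M hM A hAfin
  have iB := integrableOn_of_bdd F hF M hM B hBfin
  have e1 := integral_inter_add_sdiff hB iA
  have e2 := integral_inter_add_sdiff hA iB
  have fAB : volume (A \ B) ≠ ∞ := ne_top_of_le_ne_top hAfin (measure_mono sdiff_subset)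
  have fBA : volume (B \ A) ≠ ∞ := ne_top_of_le_ne_top hBfin (measure_mono sdiff_subset)
  have fI : volume (A ∩ B) ≠ ∞ := ne_top_of_le_ne_top hAfin (measure_mono inter_subset_left)
  have hvol : volume (A \ B) = volume (B \ A) := by
    have m1 := measure_inter_add_sdiff (μ := volume) A hB
    have m2 := measure_inter_add_sdiff (μ := volume) B hA
    rw [inter_comm] at m2
    have : volume (A ∩ B) + volume (A \ B) = volume (A ∩ B) + volume (B \ A) := by
      rw [m1, m2, hAB]
    exact (ENNReal.add_right_inj fI).1 this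
  have b1 := abs_setIntegral_le F M hM (A \ B) fAB
  have b2 := abs_setIntegral_le F M hM (B \ A) fBA
  rw [hvol] at b1
  rw [inter_comm] at e2
  have c1 := le_abs_self (∫ x in A \ B, F x)
  have c2 := neg_abs_le (∫ x in B \ A, F x)
  linarith

/-- Discrete integration by parts: the integral over `A` of a second difference of a Lipschitz
function is controlled by the volume of the layer `K \ A`, provided `A - v ⊆ K`. -/
theorem secondDiff_integral_le (ψ : EuclideanSpace ℝ (Fin d) → ℝ) (R : ℝ) (hR : 0 ≤ R)
    (hψ : ∀ x y, |ψ x - ψ y| ≤ R * ‖x - y‖)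
    (A K : Set (EuclideanSpace ℝ (Fin d))) (hA : MeasurableSet A) (hK : MeasurableSet K)
    (hKfin : volume K ≠ ∞) (hAK : A ⊆ K) (v : EuclideanSpace ℝ (Fin d))
    (hv : ∀ x ∈ A, x - v ∈ K) :
    ∫ x in A, (ψ (x + v) + ψ (x - v) - 2 * ψ x) ≤ 2 * R * ‖v‖ * (volume (K \ A)).toReal := by
  have hlip : LipschitzWith (Real.toNNReal R) ψ := by
    refine LipschitzWith.of_dist_le_mul fun x y => ?_
    rw [Real.dist_eq, dist_eq_norm, Real.coe_toNNReal _ hR]
    exact hψ x y
  have hcont : Continuous ψ := hlip.continuous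
  set F : EuclideanSpace ℝ (Fin d) → ℝ := fun x => ψ (x + v) - ψ x with hF
  have hFc : Continuous F := (hcont.comp (continuous_id.add continuous_const)).sub hcont
  have hFm : Measurable F := hFc.measurable
  have hFb : ∀ x, |F x| ≤ R * ‖v‖ := by
    intro x
    have := hψ (x + v) x
    simpa [hF] using this
  have hAfin : volume A ≠ ∞ := ne_top_of_le_ne_top hKfin (measure_mono hAK)
  set B : Set (EuclideanSpace ℝ (Fin d)) := (fun u => u + v) ⁻¹' A with hB
  have hBm : MeasurableSet B := (measurable_add_const v) hA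
  have hvolB : volume A = volume B :=
    ((measurePreserving_add_right volume v).measure_preimage hA.nullMeasurableSet).symm
  have htrans : ∫ x in A, F (x - v) = ∫ u in B, F u := by
    have := (measurePreserving_add_right volume v).setIntegral_preimage_emb
      (measurableEmbedding_addRight v) (fun x => F (x - v)) A
    simp only [add_sub_cancel_right] at this
    exact this.symm
  have hG : Measurable fun x => F (x - v) := hFm.comp (measurable_sub_const v)
  have i1 := integrableOn_of_bdd F hFm _ hFb A hAfin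
  have i2 := integrableOn_of_bdd (fun x => F (x - v)) hG _ (fun x => hFb (x - v)) A hAfin
  have e1 : ∫ x in A, (ψ (x + v) + ψ (x - v) - 2 * ψ x)
      = (∫ x in A, F x) - ∫ x in A, F (x - v) := by
    rw [← integral_sub i1 i2]
    refine integral_congr_ae (Filter.Eventually.of_forall fun x => ?_)
    simp only [hF, sub_add_cancel]
    ring
  rw [e1, htrans]
  have h1 := setIntegral_sub_le F hFm _ hFb A B hA hBm hAfin hvolB
  have hsub : B \ A ⊆ K \ A := by
    rintro u ⟨hu, huA⟩
    refine ⟨?_, huA⟩
    have := hv (u + v) hu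
    simpa using this
  have fKA : volume (K \ A) ≠ ∞ := ne_top_of_le_ne_top hKfin (measure_mono sdiff_subset)
  have h2 : (volume (B \ A)).toReal ≤ (volume (K \ A)).toReal :=
    ENNReal.toReal_mono fKA (measure_mono hsub)
  have h3 : 0 ≤ 2 * (R * ‖v‖) := by positivity
  calc (∫ x in A, F x) - ∫ u in B, F u ≤ 2 * (R * ‖v‖) * (volume (B \ A)).toReal := h1
    _ ≤ 2 * (R * ‖v‖) * (volume (K \ A)).toReal := mul_le_mul_of_nonneg_left h2 h3
    _ = 2 * R * ‖v‖ * (volume (K \ A)).toReal := by ring

end Vale.Agent.P074.Lower
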