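import Vale.Agent.P074.Lower.Geometry
import Vale.Agent.P074.Lower.SecondDiff
import Vale.Agent.P074.Lower.Pointwise
import Vale.Agent.P074.Lower.Gap

open MeasureTheory Set Metric
open scoped ENNReal NNReal

namespace Vale.Agent.P074.Lower

variable {d : ℕ}

/-- `‖T - S‖` is integrable on every measurable subset of `K`. -/
theorem integrableOn_norm_sub (K B : Set (EuclideanSpace ℝ (Fin d))) (hKc : IsCompact K)
    (hBK : B ⊆ K) (RY : ℝ)
    (T S : EuclideanSpace ℝ (Fin d) → EuclideanSpace ℝ (Fin d)) (hT : Measurable T)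
    (hS : Measurable S)
    (hTY : ∀ᵐ x ∂(volume.restrict K), ‖T x‖ ≤ RY) (hSY : ∀ᵐ x ∂(volume.restrict K), ‖S x‖ ≤ RY) :
    IntegrableOn (fun x => ‖T x - S x‖) B := by
  have hfin : volume B ≠ ∞ :=
    ((measure_mono hBK).trans_lt hKc.measure_lt_top).ne
  have hTB := ae_restrict_of_ae_restrict_of_subset hBK hTY
  have hSB := ae_restrict_of_ae_restrict_of_subset hBK hSY
  refine Measure.integrableOn_of_bounded (M := 2 * RY) hfin
    ((hT.sub hS).norm.aestronglyMeasurable) ?_
  filter_upwards [hTB, hSB] with x h1 h2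
  rw [norm_norm]
  calc ‖T x - S x‖ ≤ ‖T x‖ + ‖S x‖ := norm_sub_le _ _
    _ ≤ 2 * RY := by linarith

theorem norm_sub_le_ae (K B : Set (EuclideanSpace ℝ (Fin d)))
    (hBK : B ⊆ K) (RY : ℝ)
    (T S : EuclideanSpace ℝ (Fin d) → EuclideanSpace ℝ (Fin d))
    (hTY : ∀ᵐ x ∂(volume.restrict K), ‖T x‖ ≤ RY) (hSY : ∀ᵐ x ∂(volume.restrict K), ‖S x‖ ≤ RY) :
    ∀ᵐ x ∂(volume.restrict B), ‖T x - S x‖ ≤ 2 * RY := by
  have hTB := ae_restrict_of_ae_restrict_of_subset hBK hTY
  have hSB := ae_restrict_of_ae_restrict_of_subset hBK hSY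
  filter_upwards [hTB, hSB] with x h1 h2
  calc ‖T x - S x‖ ≤ ‖T x‖ + ‖S x‖ := norm_sub_le _ _
    _ ≤ 2 * RY := by linarith

/-- The second difference in direction `v`. -/
theorem integrableOn_secondDiff (ψ : EuclideanSpace ℝ (Fin d) → ℝ) (hψ : Continuous ψ)
    (A : Set (EuclideanSpace ℝ (Fin d))) (hA : IsCompact A) (v : EuclideanSpace ℝ (Fin d)) :
    IntegrableOn (fun x => ψ (x + v) + ψ (x - v) - 2 * ψ x) A := by
  have hcont : Continuous (fun x => ψ (x + v) + ψ (x - v) - 2 * ψ x) := by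
    have h1 : Continuous fun x : EuclideanSpace ℝ (Fin d) => ψ (x + v) :=
      hψ.comp (continuous_id.add continuous_const)
    have h2 : Continuous fun x : EuclideanSpace ℝ (Fin d) => ψ (x - v) :=
      hψ.comp (continuous_id.sub continuous_const)
    exact (h1.add h2).sub (continuous_const.mul hψ)
  exact hcont.continuousOn.integrableOn_compact hA

theorem norm_smul_single (t : ℝ) (ht : 0 ≤ t) (i : Fin d) :
    ‖t • (EuclideanSpace.single i (1 : ℝ) : EuclideanSpace ℝ (Fin d))‖ = t := by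
  rw [norm_smul, EuclideanSpace.norm_single, norm_one, mul_one, Real.norm_of_nonneg ht]

/-- Interior estimate: on the shrunken body `A = shrink c s K`, with `t = s r`. -/
theorem interior_bound (K : Set (EuclideanSpace ℝ (Fin d))) (hKc : IsCompact K)
    (hKconv : Convex ℝ K) (c : EuclideanSpace ℝ (Fin d)) (r : ℝ) (hr : 0 < r)
    (hc : closedBall c r ⊆ K) (RY : ℝ) (hRY : 0 ≤ RY)
    (T S : EuclideanSpace ℝ (Fin d) → EuclideanSpace ℝ (Fin d)) (hT : Measurable T)
    (hS : Measurable S)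
    (hTY : ∀ᵐ x ∂(volume.restrict K), ‖T x‖ ≤ RY) (hSY : ∀ᵐ x ∂(volume.restrict K), ‖S x‖ ≤ RY)
    (ψ : EuclideanSpace ℝ (Fin d) → ℝ) (hψ : ∀ x y, |ψ x - ψ y| ≤ RY * ‖x - y‖)
    (hψsub : ∀ᵐ x ∂(volume.restrict K), ∀ x', ψ x + inner ℝ (S x) (x' - x) ≤ ψ x')
    (s : ℝ) (hs0 : 0 < s) (hs1 : s < 1) :
    (s * r) * ∫ x in shrink c s K, ‖T x - S x‖ ≤
      d * (∫ x in K, gap K ψ T x) + d * (2 * RY * (s * r) * (d * s * (volume K).toReal)) := by
  have ht : 0 < s * r := mul_pos hs0 hr
  have hψc : Continuous ψ := continuous_of_lip ψ RY hψ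
  have hAK : shrink c s K ⊆ K := shrink_subset K hKconv c r hr hc s hs0 hs1
  have hAc : IsCompact (shrink c s K) := isCompact_shrink K hKc c s
  have hAm : MeasurableSet (shrink c s K) := hAc.measurableSet
  have hKm : MeasurableSet K := hKc.measurableSet
  have hne : K.Nonempty := ⟨c, hc (mem_closedBall_self hr.le)⟩
  have hgapK : IntegrableOn (gap K ψ T) K := integrableOn_gap K hKc hne ψ hψc T hT RY hTY
  have hgapA : IntegrableOn (gap K ψ T) (shrink c s K) := hgapK.mono_set hAK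
  have hnorm : IntegrableOn (fun x => ‖T x - S x‖) (shrink c s K) :=
    integrableOn_norm_sub K _ hKc hAK RY T S hT hS hTY hSY
  have hsd : ∀ i : Fin d, IntegrableOn (fun x => ψ (x + (s * r) • EuclideanSpace.single i (1 : ℝ))
      + ψ (x - (s * r) • EuclideanSpace.single i (1 : ℝ)) - 2 * ψ x) (shrink c s K) :=
    fun i => integrableOn_secondDiff ψ hψc _ hAc _
  -- pointwise inequality
  have hpt : ∀ᵐ x ∂(volume.restrict (shrink c s K)), (s * r) * ‖T x - S x‖ ≤
      d * gap K ψ T x + ∑ i : Fin d, (ψ (x + (s * r) • EuclideanSpace.single i (1 : ℝ))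
        + ψ (x - (s * r) • EuclideanSpace.single i (1 : ℝ)) - 2 * ψ x) := by
    have hsubA := ae_restrict_of_ae_restrict_of_subset hAK hψsub
    filter_upwards [hsubA, ae_restrict_mem hAm] with x hx hxA
    have := pointwise_norm K ψ x (T x) (S x) (s * r) (conj K ψ (T x)) ht.le
      (fun v hv => shrink_add_mem K hKconv c r hr hc s hs0 hs1 x hxA v hv) hx
      (fun x' hx' => le_conj K hKc ψ hψc x' (T x) hx')
    simpa [gap] using this
  have hint : (s * r) * ∫ x in shrink c s K, ‖T x - S x‖ ≤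
      d * (∫ x in shrink c s K, gap K ψ T x) + ∑ i : Fin d, ∫ x in shrink c s K,
        (ψ (x + (s * r) • EuclideanSpace.single i (1 : ℝ))
        + ψ (x - (s * r) • EuclideanSpace.single i (1 : ℝ)) - 2 * ψ x) := by
    rw [← integral_const_mul, ← integral_const_mul, ← integral_finsetSum _ (fun i _ => hsd i),
      ← integral_add (hgapA.const_mul _) (integrable_finsetSum _ (fun i _ => hsd i))]
    exact integral_mono_ae (hnorm.const_mul _)
      ((hgapA.const_mul _).add (integrable_finsetSum _ (fun i _ => hsd i))) hpt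
  have hgapmono : ∫ x in shrink c s K, gap K ψ T x ≤ ∫ x in K, gap K ψ T x := by
    refine setIntegral_mono_set hgapK ?_ (Filter.Eventually.of_forall hAK)
    filter_upwards [ae_restrict_mem hKm] with x hx
    exact gap_nonneg K hKc ψ hψc T x hx
  have hvol := volume_diff_shrink_le K hKc hKconv c r hr hc s hs0 hs1
  have hsdle : ∀ i : Fin d, ∫ x in shrink c s K,
        (ψ (x + (s * r) • EuclideanSpace.single i (1 : ℝ))
        + ψ (x - (s * r) • EuclideanSpace.single i (1 : ℝ)) - 2 * ψ x) ≤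
        2 * RY * (s * r) * (d * s * (volume K).toReal) := by
    intro i
    have h1 := secondDiff_integral_le ψ RY hRY hψ (shrink c s K) K hAm hKm
      hKc.measure_lt_top.ne hAK ((s * r) • EuclideanSpace.single i (1 : ℝ)) (by
        intro x hx
        have := shrink_add_mem K hKconv c r hr hc s hs0 hs1 x hx
          (-((s * r) • EuclideanSpace.single i (1 : ℝ))) (by
            rw [norm_neg, norm_smul_single _ ht.le])
        simpa [sub_eq_add_neg] using this)
    rw [norm_smul_single _ ht.le] at h1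
    refine h1.trans ?_
    exact mul_le_mul_of_nonneg_left hvol (by positivity)
  have hsum : ∑ i : Fin d, ∫ x in shrink c s K,
        (ψ (x + (s * r) • EuclideanSpace.single i (1 : ℝ))
        + ψ (x - (s * r) • EuclideanSpace.single i (1 : ℝ)) - 2 * ψ x) ≤
        d * (2 * RY * (s * r) * (d * s * (volume K).toReal)) := by
    calc _ ≤ ∑ _i : Fin d, 2 * RY * (s * r) * (d * s * (volume K).toReal) :=
          Finset.sum_le_sum (fun i _ => hsdle i)
      _ = d * (2 * RY * (s * r) * (d * s * (volume K).toReal)) := by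
          simp [Finset.sum_const, nsmul_eq_mul]
  have hd : (0 : ℝ) ≤ d := Nat.cast_nonneg d
  have := mul_le_mul_of_nonneg_left hgapmono hd
  linarith

/-- Boundary layer estimate. -/
theorem layer_bound (K : Set (EuclideanSpace ℝ (Fin d))) (hKc : IsCompact K)
    (hKconv : Convex ℝ K) (c : EuclideanSpace ℝ (Fin d)) (r : ℝ) (hr : 0 < r)
    (hc : closedBall c r ⊆ K) (RY : ℝ) (hRY : 0 ≤ RY)
    (T S : EuclideanSpace ℝ (Fin d) → EuclideanSpace ℝ (Fin d)) (hT : Measurable T)
    (hS : Measurable S)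
    (hTY : ∀ᵐ x ∂(volume.restrict K), ‖T x‖ ≤ RY) (hSY : ∀ᵐ x ∂(volume.restrict K), ‖S x‖ ≤ RY)
    (s : ℝ) (hs0 : 0 < s) (hs1 : s < 1) :
    ∫ x in K \ shrink c s K, ‖T x - S x‖ ≤ 2 * RY * (d * s * (volume K).toReal) := by
  have hBK : K \ shrink c s K ⊆ K := sdiff_subset
  have hfin : volume (K \ shrink c s K) ≠ ∞ :=
    ((measure_mono hBK).trans_lt hKc.measure_lt_top).ne
  have hnorm := integrableOn_norm_sub K _ hKc hBK RY T S hT hS hTY hSY
  have hle := norm_sub_le_ae K _ hBK RY T S hTY hSY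
  have hvol := volume_diff_shrink_le K hKc hKconv c r hr hc s hs0 hs1
  have hconst : IntegrableOn (fun _ : EuclideanSpace ℝ (Fin d) => 2 * RY) (K \ shrink c s K) :=
    integrableOn_const hfin
  calc ∫ x in K \ shrink c s K, ‖T x - S x‖ ≤ ∫ _x in K \ shrink c s K, 2 * RY :=
        integral_mono_ae hnorm hconst hle
    _ = 2 * RY * (volume (K \ shrink c s K)).toReal := by
        rw [setIntegral_const, Measure.real, smul_eq_mul, mul_comm]
    _ ≤ 2 * RY * (d * s * (volume K).toReal) :=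
        mul_le_mul_of_nonneg_left hvol (by positivity)

/-- The `L¹` estimate with a free parameter `s ∈ (0,1)`; `g` bounds the sum of the two
integrated gaps. -/
theorem l1_bound_param (K : Set (EuclideanSpace ℝ (Fin d))) (hKc : IsCompact K)
    (hKconv : Convex ℝ K) (c : EuclideanSpace ℝ (Fin d)) (r : ℝ) (hr : 0 < r)
    (hc : closedBall c r ⊆ K) (RY : ℝ) (hRY : 0 ≤ RY)
    (T S : EuclideanSpace ℝ (Fin d) → EuclideanSpace ℝ (Fin d)) (hT : Measurable T)
    (hS : Measurable S)
    (hTY : ∀ᵐ x ∂(volume.restrict K), ‖T x‖ ≤ RY) (hSY : ∀ᵐ x ∂(volume.restrict K), ‖S x‖ ≤ RY)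
    (ψ : EuclideanSpace ℝ (Fin d) → ℝ) (hψ : ∀ x y, |ψ x - ψ y| ≤ RY * ‖x - y‖)
    (hψsub : ∀ᵐ x ∂(volume.restrict K), ∀ x', ψ x + inner ℝ (S x) (x' - x) ≤ ψ x')
    (s : ℝ) (hs0 : 0 < s) (hs1 : s < 1) :
    ∫ x in K, ‖T x - S x‖ ≤
      d * (∫ x in K, gap K ψ T x) / (s * r) + (2 * d ^ 2 + 2 * d) * RY * s * (volume K).toReal := by
  have ht : 0 < s * r := mul_pos hs0 hr
  have hAK : shrink c s K ⊆ K := shrink_subset K hKconv c r hr hc s hs0 hs1
  have hAm : MeasurableSet (shrink c s K) := (isCompact_shrink K hKc c s).measurableSet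
  have hKm : MeasurableSet K := hKc.measurableSet
  have h1 := interior_bound K hKc hKconv c r hr hc RY hRY T S hT hS hTY hSY ψ hψ hψsub s hs0 hs1
  have h2 := layer_bound K hKc hKconv c r hr hc RY hRY T S hT hS hTY hSY s hs0 hs1
  have hsplit : ∫ x in K, ‖T x - S x‖ = (∫ x in shrink c s K, ‖T x - S x‖)
      + ∫ x in K \ shrink c s K, ‖T x - S x‖ := by
    have hU : K = shrink c s K ∪ (K \ shrink c s K) := (union_sdiff_cancel hAK).symm
    conv_lhs => rw [hU]
    exact setIntegral_union disjoint_sdiff_right (hKm.diff hAm)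
      (integrableOn_norm_sub K _ hKc hAK RY T S hT hS hTY hSY)
      (integrableOn_norm_sub K _ hKc sdiff_subset RY T S hT hS hTY hSY)
  have h3 : ∫ x in shrink c s K, ‖T x - S x‖ ≤
      (d * (∫ x in K, gap K ψ T x) + d * (2 * RY * (s * r) * (d * s * (volume K).toReal)))
        / (s * r) := by
    rw [le_div_iff₀ ht]
    linarith
  have h4 : (d * (∫ x in K, gap K ψ T x) + d * (2 * RY * (s * r) * (d * s * (volume K).toReal)))
        / (s * r) = d * (∫ x in K, gap K ψ T x) / (s * r)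
          + 2 * d ^ 2 * RY * s * (volume K).toReal := by
    field_simp
  rw [hsplit]
  rw [h4] at h3
  nlinarith [h2, h3]

end Vale.Agent.P074.Lower
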