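import Vale.Agent.P074.Lower.L1Bound
import Vale.Agent.P074.Lower.CycMono
import Vale.Agent.P074.Lower.Coupling
import Vale.Agent.P074.Lower.Convert

open MeasureTheory Set Metric
open scoped ENNReal NNReal

namespace Vale.Agent.P074.Lower

open Vale.Agent.P074

variable {d : ℕ}

theorem exists_closedBall_subset (K : Set (EuclideanSpace ℝ (Fin d)))
    (hKint : (interior K).Nonempty) :
    ∃ (c : EuclideanSpace ℝ (Fin d)) (r : ℝ), 0 < r ∧ closedBall c r ⊆ K := by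
  obtain ⟨c, hc⟩ := hKint
  obtain ⟨ε, hε, hball⟩ := Metric.mem_nhds_iff.mp (mem_interior_iff_mem_nhds.mp hc)
  exact ⟨c, ε / 2, by positivity, (closedBall_subset_ball (by linarith)).trans hball⟩

theorem trivial_l1_bound (K : Set (EuclideanSpace ℝ (Fin d))) (hKfin : volume K ≠ ∞) (RY : ℝ)
    (T S : EuclideanSpace ℝ (Fin d) → EuclideanSpace ℝ (Fin d))
    (hTY : ∀ᵐ x ∂(volume.restrict K), ‖T x‖ ≤ RY) (hSY : ∀ᵐ x ∂(volume.restrict K), ‖S x‖ ≤ RY) :
    ∫ x in K, ‖T x - S x‖ ≤ 2 * RY * (volume K).toReal := by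
  have : IsFiniteMeasure (volume.restrict K) := ⟨by
    rw [Measure.restrict_apply_univ]; exact lt_top_iff_ne_top.mpr hKfin⟩
  have h1 : ∫ x in K, ‖T x - S x‖ ≤ ∫ _x in K, 2 * RY := by
    refine integral_mono_of_nonneg (Filter.Eventually.of_forall fun x => norm_nonneg _)
      (integrable_const _) ?_
    filter_upwards [hTY, hSY] with x h1 h2
    calc ‖T x - S x‖ ≤ ‖T x‖ + ‖S x‖ := norm_sub_le _ _
      _ ≤ 2 * RY := by linarith
  refine h1.trans (le_of_eq ?_)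
  rw [integral_const, measureReal_def, Measure.restrict_apply_univ, smul_eq_mul]
  ring

/-- The `L¹` stability estimate `‖T_μ - T_ν‖_{L¹} ≤ C (∫ |y - z| dπ)^{1/2}`. -/
theorem l1_stability (hd : 0 < d) (K : Set (EuclideanSpace ℝ (Fin d))) (hKc : IsCompact K)
    (hKconv : Convex ℝ K) (hKint : (interior K).Nonempty)
    (Y : Set (EuclideanSpace ℝ (Fin d))) (hY : IsCompact Y) :
    ∃ C : ℝ, 0 ≤ C ∧ ∀ μ ν : Measure (EuclideanSpace ℝ (Fin d)), μ Yᶜ = 0 → ν Yᶜ = 0 →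
      ∀ T S : EuclideanSpace ℝ (Fin d) → EuclideanSpace ℝ (Fin d),
      IsOTMap (unif K) μ T → IsOTMap (unif K) ν S →
      ∀ π : Measure (EuclideanSpace ℝ (Fin d) × EuclideanSpace ℝ (Fin d)),
      Measure.map Prod.fst π = μ → Measure.map Prod.snd π = ν →
      ∫ x in K, ‖T x - S x‖ ≤ C * Real.sqrt (∫ p, ‖p.1 - p.2‖ ∂π) := by
  obtain ⟨c, r, hr, hcr⟩ := exists_closedBall_subset K hKint
  obtain ⟨RK0, hRK0⟩ := hKc.isBounded.exists_norm_le
  obtain ⟨RY0, hRY0⟩ := hY.isBounded.exists_norm_le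
  have hRK : ∀ x ∈ K, ‖x‖ ≤ |RK0| := fun x hx => (hRK0 x hx).trans (le_abs_self _)
  have hRY : ∀ y ∈ Y, ‖y‖ ≤ |RY0| := fun x hx => (hRY0 x hx).trans (le_abs_self _)
  have hK0 : volume K ≠ 0 := volume_ne_zero_of_interior K hKint
  have hKfin : volume K ≠ ∞ := hKc.measure_lt_top.ne
  refine ⟨2 * d * (volume K).toReal * |RK0| / r + (2 * d ^ 2 + 2 * d) * |RY0| * (volume K).toReal
    + 2 * |RY0| * (volume K).toReal, by positivity, ?_⟩
  intro μ ν hμ hν T S hT hS π h1 h2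
  obtain ⟨φ, hφ, hφsub⟩ := exists_potential hd K hKc hKconv hKint Y hY _ hRY μ hμ T hT
  obtain ⟨ψ, hψ, hψsub⟩ := exists_potential hd K hKc hKconv hKint Y hY _ hRY ν hν S hS
  have hTY : ∀ᵐ x ∂(volume.restrict K), ‖T x‖ ≤ |RY0| := hφsub.mono fun x hx => hRY _ hx.1
  have hSY : ∀ᵐ x ∂(volume.restrict K), ‖S x‖ ≤ |RY0| := hψsub.mono fun x hx => hRY _ hx.1
  have hgap := gap_integral_le K hKc hK0 |RK0| |RY0| hRK T S hT.1 hS.1 hTY hSY φ ψ
    (continuous_of_lip φ _ hφ) (continuous_of_lip ψ _ hψ) (hφsub.mono fun x hx => hx.2)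
    (hψsub.mono fun x hx => hx.2) π (h1.trans hT.2.1.symm) (h2.trans hS.2.1.symm)
  refine optimise_param _ _ _ _ _ (by positivity) (by positivity) (by positivity)
    (integral_nonneg fun p => norm_nonneg _) (trivial_l1_bound K hKfin _ T S hTY hSY) ?_
  intro s hs0 hs1
  have hb := l1_bound_param K hKc hKconv c r hr hcr |RY0| (abs_nonneg _) T S hT.1 hS.1 hTY hSY ψ hψ
    (hψsub.mono fun x hx => hx.2) s hs0 hs1
  refine hb.trans ?_
  have hsr : 0 < s * r := mul_pos hs0 hr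
  have h3 : (d : ℝ) * (∫ x in K, gap K ψ T x) / (s * r) ≤
      2 * d * (volume K).toReal * |RK0| / r * (∫ p, ‖p.1 - p.2‖ ∂π) / s := by
    rw [div_le_iff₀ hsr]
    have h4 : 2 * d * (volume K).toReal * |RK0| / r * (∫ p, ‖p.1 - p.2‖ ∂π) / s * (s * r)
        = d * ((volume K).toReal * (2 * |RK0| * ∫ p, ‖p.1 - p.2‖ ∂π)) := by
      field_simp
    rw [h4]
    exact mul_le_mul_of_nonneg_left hgap (Nat.cast_nonneg _)
  have h5 : (2 * (d : ℝ) ^ 2 + 2 * d) * |RY0| * s * (volume K).toReal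
      = (2 * d ^ 2 + 2 * d) * |RY0| * (volume K).toReal * s := by ring
  rw [h5]
  exact add_le_add h3 le_rfl

theorem coupling_props (Y : Set (EuclideanSpace ℝ (Fin d))) (hY : MeasurableSet Y) (RY : ℝ)
    (hRY : ∀ y ∈ Y, ‖y‖ ≤ RY)
    (μ ν : Measure (EuclideanSpace ℝ (Fin d))) [IsProbabilityMeasure μ] (hμ : μ Yᶜ = 0)
    (hν : ν Yᶜ = 0)
    (π : Measure (EuclideanSpace ℝ (Fin d) × EuclideanSpace ℝ (Fin d)))
    (h1 : Measure.map Prod.fst π = μ) (h2 : Measure.map Prod.snd π = ν) :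
    IsProbabilityMeasure π ∧ ∀ᵐ p ∂π, ‖p.1‖ ≤ RY ∧ ‖p.2‖ ≤ RY := by
  constructor
  · constructor
    have h3 : μ univ = 1 := measure_univ
    rw [← h1, Measure.map_apply measurable_fst MeasurableSet.univ, preimage_univ] at h3
    exact h3
  · rw [← h1, Measure.map_apply measurable_fst hY.compl] at hμ
    rw [← h2, Measure.map_apply measurable_snd hY.compl] at hν
    filter_upwards [measure_eq_zero_iff_ae_notMem.mp hμ, measure_eq_zero_iff_ae_notMem.mp hν]
      with p hp1 hp2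
    refine ⟨hRY _ ?_, hRY _ ?_⟩
    · by_contra hc
      exact hp1 hc
    · by_contra hc
      exact hp2 hc

/-- The exponent `1/4` is admissible. -/
theorem admissible_quarter (hd : 0 < d) : Admissible d (1 / 4) := by
  intro K hKc hKconv hKint Y hY _
  obtain ⟨C, hC, h⟩ := l1_stability hd K hKc hKconv hKint Y hY
  obtain ⟨RY0, hRY0⟩ := hY.isBounded.exists_norm_le
  have hRY : ∀ y ∈ Y, ‖y‖ ≤ |RY0| := fun x hx => (hRY0 x hx).trans (le_abs_self _)
  have hK0 : volume K ≠ 0 := volume_ne_zero_of_interior K hKint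
  have hKfin : volume K ≠ ∞ := hKc.measure_lt_top.ne
  refine ⟨((2 * |RY0| * C * (volume K).toReal⁻¹).toNNReal + 1) ^ (1 / 2 : ℝ), ?_⟩
  intro μ ν hμp hνp hμ hν T S hT hS
  unfold L2dist W2
  refine le_mul_iInf_rpow _ _ (by positivity) _ ?_
  rintro ⟨π, h1, h2⟩
  obtain ⟨hπp, hπ⟩ := coupling_props Y hY.measurableSet _ hRY μ ν hμ hν π h1 h2
  have hTY : ∀ᵐ x ∂(volume.restrict K), ‖T x‖ ≤ |RY0| := by
    rw [ae_restrict_iff' hKc.measurableSet]
    filter_upwards [measure_eq_zero_iff_ae_notMem.mp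
      (volume_inter_preimage_compl K hKfin Y hY.measurableSet μ hμ T hT)] with x hx hxK
    refine hRY _ ?_
    by_contra hc
    exact hx ⟨hc, hxK⟩
  have hSY : ∀ᵐ x ∂(volume.restrict K), ‖S x‖ ≤ |RY0| := by
    rw [ae_restrict_iff' hKc.measurableSet]
    filter_upwards [measure_eq_zero_iff_ae_notMem.mp
      (volume_inter_preimage_compl K hKfin Y hY.measurableSet ν hν S hS)] with x hx hxK
    refine hRY _ ?_
    by_contra hc
    exact hx ⟨hc, hxK⟩
  have key := l2_of_l1 K hKc.measurableSet hK0 hKfin |RY0| C (abs_nonneg _) hC T S hT.1 hS.1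
    hTY hSY π hπ (h μ ν hμ hν T S hT hS π h1 h2)
  refine key.trans ?_
  refine mul_le_mul_left ?_ _
  rw [ENNReal.ofReal]
  exact_mod_cast le_self_add

end Vale.Agent.P074.Lower
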