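import Vale.Agent.P074.Defs

open MeasureTheory Set Metric
open scoped ENNReal NNReal

namespace Vale.Agent.P074.Lower

open Vale.Agent.P074

variable {d : ℕ}

/-- Forward displacement: `w (i+1) - w i` on the ball number `i`, zero outside the balls. -/
noncomputable def disp {n : ℕ} (w : Fin (n + 1) → EuclideanSpace ℝ (Fin d)) (δ : ℝ)
    (x : EuclideanSpace ℝ (Fin d)) : EuclideanSpace ℝ (Fin d) :=
  ∑ i, (closedBall (w i) δ).indicator (fun _ => w (i + 1) - w i) x

/-- Backward displacement: `w (i+1) - w i` on the ball number `i+1`, zero outside the balls. -/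
noncomputable def dispBack {n : ℕ} (w : Fin (n + 1) → EuclideanSpace ℝ (Fin d)) (δ : ℝ)
    (x : EuclideanSpace ℝ (Fin d)) : EuclideanSpace ℝ (Fin d) :=
  ∑ i, (closedBall (w (i + 1)) δ).indicator (fun _ => w (i + 1) - w i) x

/-- The cyclic exchange of the balls `closedBall (w i) δ` by translations. -/
noncomputable def swap {n : ℕ} (w : Fin (n + 1) → EuclideanSpace ℝ (Fin d)) (δ : ℝ)
    (x : EuclideanSpace ℝ (Fin d)) : EuclideanSpace ℝ (Fin d) :=
  x + disp w δ x

theorem measurable_disp {n : ℕ} (w : Fin (n + 1) → EuclideanSpace ℝ (Fin d)) (δ : ℝ) :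
    Measurable (disp w δ) := by
  unfold disp
  exact Finset.measurable_sum _ fun i _ => measurable_const.indicator measurableSet_closedBall

theorem measurable_dispBack {n : ℕ} (w : Fin (n + 1) → EuclideanSpace ℝ (Fin d)) (δ : ℝ) :
    Measurable (dispBack w δ) := by
  unfold dispBack
  exact Finset.measurable_sum _ fun i _ => measurable_const.indicator measurableSet_closedBall

theorem measurable_swap {n : ℕ} (w : Fin (n + 1) → EuclideanSpace ℝ (Fin d)) (δ : ℝ) :
    Measurable (swap w δ) :=
  measurable_id.add (measurable_disp w δ)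

theorem disp_of_mem {n : ℕ} (w : Fin (n + 1) → EuclideanSpace ℝ (Fin d)) (δ : ℝ)
    (hdisj : Pairwise fun i j => Disjoint (closedBall (w i) δ) (closedBall (w j) δ))
    (i : Fin (n + 1)) (x : EuclideanSpace ℝ (Fin d)) (hx : x ∈ closedBall (w i) δ) :
    disp w δ x = w (i + 1) - w i := by
  unfold disp
  rw [Finset.sum_eq_single i, indicator_of_mem hx]
  · intro j _ hj
    exact indicator_of_notMem (fun hxj => (Set.disjoint_left.mp (hdisj hj) hxj) hx) _
  · intro h
    exact absurd (Finset.mem_univ i) h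

theorem disp_of_notMem {n : ℕ} (w : Fin (n + 1) → EuclideanSpace ℝ (Fin d)) (δ : ℝ)
    (x : EuclideanSpace ℝ (Fin d)) (hx : ∀ i, x ∉ closedBall (w i) δ) :
    disp w δ x = 0 := by
  unfold disp
  exact Finset.sum_eq_zero fun i _ => indicator_of_notMem (hx i) _

theorem dispBack_of_mem {n : ℕ} (w : Fin (n + 1) → EuclideanSpace ℝ (Fin d)) (δ : ℝ)
    (hdisj : Pairwise fun i j => Disjoint (closedBall (w i) δ) (closedBall (w j) δ))
    (i : Fin (n + 1)) (x : EuclideanSpace ℝ (Fin d)) (hx : x ∈ closedBall (w (i + 1)) δ) :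
    dispBack w δ x = w (i + 1) - w i := by
  unfold dispBack
  rw [Finset.sum_eq_single i, indicator_of_mem hx]
  · intro j _ hj
    have hj' : j + 1 ≠ i + 1 := fun h => hj (add_right_cancel h)
    exact indicator_of_notMem (fun hxj => (Set.disjoint_left.mp (hdisj hj') hxj) hx) _
  · intro h
    exact absurd (Finset.mem_univ i) h

theorem dispBack_of_notMem {n : ℕ} (w : Fin (n + 1) → EuclideanSpace ℝ (Fin d)) (δ : ℝ)
    (x : EuclideanSpace ℝ (Fin d)) (hx : ∀ i, x ∉ closedBall (w i) δ) :
    dispBack w δ x = 0 := by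
  unfold dispBack
  exact Finset.sum_eq_zero fun i _ => indicator_of_notMem (hx (i + 1)) _

theorem add_mem_closedBall_iff {n : ℕ} (w : Fin (n + 1) → EuclideanSpace ℝ (Fin d)) (δ : ℝ)
    (i : Fin (n + 1)) (x : EuclideanSpace ℝ (Fin d)) :
    x + (w (i + 1) - w i) ∈ closedBall (w (i + 1)) δ ↔ x ∈ closedBall (w i) δ := by
  rw [mem_closedBall, mem_closedBall, dist_eq_norm, dist_eq_norm]
  have : x + (w (i + 1) - w i) - w (i + 1) = x - w i := by abel
  rw [this]

theorem swap_of_mem {n : ℕ} (w : Fin (n + 1) → EuclideanSpace ℝ (Fin d)) (δ : ℝ)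
    (hdisj : Pairwise fun i j => Disjoint (closedBall (w i) δ) (closedBall (w j) δ))
    (i : Fin (n + 1)) (x : EuclideanSpace ℝ (Fin d)) (hx : x ∈ closedBall (w i) δ) :
    swap w δ x = x + (w (i + 1) - w i) := by
  unfold swap
  rw [disp_of_mem w δ hdisj i x hx]

theorem swap_of_notMem {n : ℕ} (w : Fin (n + 1) → EuclideanSpace ℝ (Fin d)) (δ : ℝ)
    (x : EuclideanSpace ℝ (Fin d)) (hx : ∀ i, x ∉ closedBall (w i) δ) :
    swap w δ x = x := by
  unfold swap
  rw [disp_of_notMem w δ x hx, add_zero]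

/-- The forward displacement at `x` is the backward displacement at the image point. -/
theorem dispBack_swap {n : ℕ} (w : Fin (n + 1) → EuclideanSpace ℝ (Fin d)) (δ : ℝ)
    (hdisj : Pairwise fun i j => Disjoint (closedBall (w i) δ) (closedBall (w j) δ))
    (x : EuclideanSpace ℝ (Fin d)) : dispBack w δ (swap w δ x) = disp w δ x := by
  by_cases h : ∃ i, x ∈ closedBall (w i) δ
  · obtain ⟨i, hi⟩ := h
    rw [swap_of_mem w δ hdisj i x hi, disp_of_mem w δ hdisj i x hi]
    exact dispBack_of_mem w δ hdisj i _ ((add_mem_closedBall_iff w δ i x).mpr hi)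
  · have h' : ∀ i, x ∉ closedBall (w i) δ := fun i hi => h ⟨i, hi⟩
    rw [swap_of_notMem w δ x h', disp_of_notMem w δ x h', dispBack_of_notMem w δ x h']

theorem measure_eq_sum_balls {n : ℕ} (w : Fin (n + 1) → EuclideanSpace ℝ (Fin d)) (δ : ℝ)
    (hdisj : Pairwise fun i j => Disjoint (closedBall (w i) δ) (closedBall (w j) δ))
    (A : Set (EuclideanSpace ℝ (Fin d))) (hA : MeasurableSet A) :
    volume A = volume (A \ ⋃ i, closedBall (w i) δ) + ∑ i, volume (A ∩ closedBall (w i) δ) := by
  have hU : MeasurableSet (⋃ i, closedBall (w i) δ) :=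
    MeasurableSet.iUnion fun i => measurableSet_closedBall
  rw [← measure_inter_add_sdiff A hU, add_comm, inter_iUnion]
  congr 1
  rw [measure_iUnion, tsum_fintype]
  · intro i j hij
    exact (hdisj hij).mono inter_subset_right inter_subset_right
  · exact fun i => hA.inter measurableSet_closedBall

/-- The cyclic exchange of pairwise disjoint balls of equal radius preserves Lebesgue measure. -/
theorem measurePreserving_swap {n : ℕ} (w : Fin (n + 1) → EuclideanSpace ℝ (Fin d)) (δ : ℝ)
    (hdisj : Pairwise fun i j => Disjoint (closedBall (w i) δ) (closedBall (w j) δ)) :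
    MeasurePreserving (swap w δ) volume volume := by
  refine ⟨measurable_swap w δ, ?_⟩
  ext A hA
  rw [Measure.map_apply (measurable_swap w δ) hA]
  have hA' : MeasurableSet (swap w δ ⁻¹' A) := measurable_swap w δ hA
  rw [measure_eq_sum_balls w δ hdisj _ hA', measure_eq_sum_balls w δ hdisj A hA]
  congr 1
  · congr 1
    ext x
    simp only [mem_sdiff, mem_preimage, mem_iUnion, not_exists]
    constructor
    · rintro ⟨h1, h2⟩
      rw [swap_of_notMem w δ x h2] at h1
      exact ⟨h1, h2⟩
    · rintro ⟨h1, h2⟩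
      rw [swap_of_notMem w δ x h2]
      exact ⟨h1, h2⟩
  · rw [← Equiv.sum_comp (Equiv.addRight (1 : Fin (n + 1)))
      (fun i => volume (A ∩ closedBall (w i) δ))]
    refine Finset.sum_congr rfl fun i _ => ?_
    simp only [Equiv.coe_addRight]
    rw [← measure_preimage_add_right volume (w (i + 1) - w i) (A ∩ closedBall (w (i + 1)) δ)]
    congr 1
    ext x
    simp only [mem_inter_iff, mem_preimage]
    constructor
    · rintro ⟨h1, h2⟩
      rw [swap_of_mem w δ hdisj i x h2] at h1
      exact ⟨h1, (add_mem_closedBall_iff w δ i x).mpr h2⟩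
    · rintro ⟨h1, h2⟩
      have h2' := (add_mem_closedBall_iff w δ i x).mp h2
      rw [swap_of_mem w δ hdisj i x h2']
      exact ⟨h1, h2'⟩

theorem swap_preimage {n : ℕ} (w : Fin (n + 1) → EuclideanSpace ℝ (Fin d)) (δ : ℝ)
    (hdisj : Pairwise fun i j => Disjoint (closedBall (w i) δ) (closedBall (w j) δ))
    (K : Set (EuclideanSpace ℝ (Fin d))) (hK : ∀ i, closedBall (w i) δ ⊆ K) :
    swap w δ ⁻¹' K = K := by
  ext x
  rw [mem_preimage]
  by_cases h : ∃ i, x ∈ closedBall (w i) δ
  · obtain ⟨i, hi⟩ := h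
    rw [swap_of_mem w δ hdisj i x hi]
    exact ⟨fun _ => hK i hi, fun _ => hK (i + 1) ((add_mem_closedBall_iff w δ i x).mpr hi)⟩
  · have h' : ∀ i, x ∉ closedBall (w i) δ := fun i hi => h ⟨i, hi⟩
    rw [swap_of_notMem w δ x h']

theorem map_swap_unif {n : ℕ} (w : Fin (n + 1) → EuclideanSpace ℝ (Fin d)) (δ : ℝ)
    (hdisj : Pairwise fun i j => Disjoint (closedBall (w i) δ) (closedBall (w j) δ))
    (K : Set (EuclideanSpace ℝ (Fin d))) (hKm : MeasurableSet K)
    (hK : ∀ i, closedBall (w i) δ ⊆ K) :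
    Measure.map (swap w δ) (unif K) = unif K := by
  unfold unif
  rw [Measure.map_smul]
  congr 1
  have h1 := Measure.restrict_map (μ := volume) (measurable_swap w δ) hKm
  rw [swap_preimage w δ hdisj K hK, (measurePreserving_swap w δ hdisj).map_eq] at h1
  exact h1.symm

end Vale.Agent.P074.Lower
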