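import Vale.Agent.P074.Lower.Swap

open MeasureTheory Set Metric
open scoped ENNReal NNReal

namespace Vale.Agent.P074.Lower

open Vale.Agent.P074

variable {d : ℕ}

/-- Optimality tested against the competitor `T ∘ swap`. -/
theorem cost_le_cost_dispBack {n : ℕ} (w : Fin (n + 1) → EuclideanSpace ℝ (Fin d)) (δ : ℝ)
    (hdisj : Pairwise fun i j => Disjoint (closedBall (w i) δ) (closedBall (w j) δ))
    (K : Set (EuclideanSpace ℝ (Fin d))) (hKm : MeasurableSet K)
    (hK : ∀ i, closedBall (w i) δ ⊆ K)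
    (μ : Measure (EuclideanSpace ℝ (Fin d)))
    (T : EuclideanSpace ℝ (Fin d) → EuclideanSpace ℝ (Fin d)) (hT : IsOTMap (unif K) μ T) :
    mapCost (unif K) T ≤
      ∫⁻ u, ENNReal.ofReal (‖u - dispBack w δ u - T u‖ ^ 2) ∂(unif K) := by
  obtain ⟨hTm, hTmap, hTopt⟩ := hT
  have hsm := measurable_swap w δ
  have hS : Measurable (T ∘ swap w δ) := hTm.comp hsm
  have hmap : Measure.map (T ∘ swap w δ) (unif K) = μ := by
    rw [← Measure.map_map hTm hsm, map_swap_unif w δ hdisj K hKm hK, hTmap]
  refine (hTopt _ hS hmap).trans (le_of_eq ?_)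
  have hG : Measurable (fun u => ENNReal.ofReal (‖u - dispBack w δ u - T u‖ ^ 2)) := by
    have h1 : Measurable (fun u => u - dispBack w δ u - T u) :=
      (measurable_id.sub (measurable_dispBack w δ)).sub hTm
    exact (h1.norm.pow_const 2).ennreal_ofReal
  have h2 : ∫⁻ u, ENNReal.ofReal (‖u - dispBack w δ u - T u‖ ^ 2) ∂(unif K) =
      ∫⁻ u, ENNReal.ofReal (‖u - dispBack w δ u - T u‖ ^ 2)
        ∂(Measure.map (swap w δ) (unif K)) := by
    rw [map_swap_unif w δ hdisj K hKm hK]
  rw [h2, lintegral_map hG hsm]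
  unfold mapCost
  apply lintegral_congr
  intro x
  rw [dispBack_swap w δ hdisj x]
  simp only [Function.comp, swap, add_sub_cancel_right]

theorem dispBack_pointwise {n : ℕ} (w : Fin (n + 1) → EuclideanSpace ℝ (Fin d)) (δ : ℝ)
    (hdisj : Pairwise fun i j => Disjoint (closedBall (w i) δ) (closedBall (w j) δ))
    (f : EuclideanSpace ℝ (Fin d) → EuclideanSpace ℝ (Fin d)) (u : EuclideanSpace ℝ (Fin d)) :
    2 * inner ℝ (f u) (dispBack w δ u) - ‖dispBack w δ u‖ ^ 2 =
      ∑ i, (closedBall (w (i + 1)) δ).indicator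
        (fun u => 2 * inner ℝ (f u) (w (i + 1) - w i) - ‖w (i + 1) - w i‖ ^ 2) u := by
  by_cases h : ∃ j, u ∈ closedBall (w (j + 1)) δ
  · obtain ⟨j, hj⟩ := h
    rw [dispBack_of_mem w δ hdisj j u hj, Finset.sum_eq_single j]
    · rw [indicator_of_mem hj]
    · intro i _ hij
      apply indicator_of_notMem
      intro hi
      have hne : i + 1 ≠ j + 1 := fun e => hij (add_right_cancel e)
      exact Set.disjoint_left.mp (hdisj hne) hi hj
    · intro hj'
      exact absurd (Finset.mem_univ j) hj'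
  · push Not at h
    have h' : ∀ i, u ∉ closedBall (w i) δ := by
      intro i
      have := h (i - 1)
      rwa [sub_add_cancel] at this
    rw [dispBack_of_notMem w δ u h']
    rw [Finset.sum_eq_zero]
    · simp
    · intro i _
      exact indicator_of_notMem (h i) _

theorem norm_dispBack_le {n : ℕ} (w : Fin (n + 1) → EuclideanSpace ℝ (Fin d)) (δ : ℝ)
    (u : EuclideanSpace ℝ (Fin d)) :
    ‖dispBack w δ u‖ ≤ ∑ i, ‖w (i + 1) - w i‖ := by
  unfold dispBack
  refine (norm_sum_le _ _).trans (Finset.sum_le_sum fun i _ => ?_)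
  by_cases h : u ∈ closedBall (w (i + 1)) δ
  · rw [indicator_of_mem h]
  · rw [indicator_of_notMem h, norm_zero]
    exact norm_nonneg _

/-- The same inequality in real form. Here `f` is a bounded measurable function equal to
`u - T u` almost everywhere on `K`. -/
theorem swap_ineq_real {n : ℕ} (w : Fin (n + 1) → EuclideanSpace ℝ (Fin d)) (δ : ℝ)
    (hdisj : Pairwise fun i j => Disjoint (closedBall (w i) δ) (closedBall (w j) δ))
    (K : Set (EuclideanSpace ℝ (Fin d))) (hKm : MeasurableSet K) (hK0 : volume K ≠ 0)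
    (hKfin : volume K ≠ ∞)
    (hK : ∀ i, closedBall (w i) δ ⊆ K)
    (μ : Measure (EuclideanSpace ℝ (Fin d)))
    (T : EuclideanSpace ℝ (Fin d) → EuclideanSpace ℝ (Fin d)) (hT : IsOTMap (unif K) μ T)
    (f : EuclideanSpace ℝ (Fin d) → EuclideanSpace ℝ (Fin d)) (hfm : Measurable f) (M : ℝ)
    (hfM : ∀ u, ‖f u‖ ≤ M) (hf : ∀ᵐ u ∂(volume.restrict K), f u = u - T u) :
    ∑ i, (2 * inner ℝ (∫ u in closedBall (w (i + 1)) δ, f u) (w (i + 1) - w i)
      - (volume (closedBall (w (i + 1)) δ)).toReal * ‖w (i + 1) - w i‖ ^ 2) ≤ 0 := by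
  have hcost := cost_le_cost_dispBack w δ hdisj K hKm hK μ T hT
  have hfin : IsFiniteMeasure (volume.restrict K) :=
    ⟨by rw [Measure.restrict_apply_univ]; exact hKfin.lt_top⟩
  set D := dispBack w δ with hD
  have hDm : Measurable D := measurable_dispBack w δ
  set MD : ℝ := ∑ i, ‖w (i + 1) - w i‖ with hMD
  have hDM : ∀ u, ‖D u‖ ≤ MD := norm_dispBack_le w δ
  have hM0 : 0 ≤ M := (norm_nonneg _).trans (hfM 0)
  have hMD0 : 0 ≤ MD := (norm_nonneg _).trans (hDM 0)
  -- remove the normalisation
  unfold mapCost unif at hcost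
  rw [lintegral_smul_measure, lintegral_smul_measure, smul_eq_mul, smul_eq_mul] at hcost
  have hc0 : (volume K)⁻¹ ≠ 0 := ENNReal.inv_ne_zero.mpr hKfin
  have hcinf : (volume K)⁻¹ ≠ ∞ := ENNReal.inv_ne_top.mpr hK0
  have hcost2 := (ENNReal.mul_le_mul_iff_right hc0 hcinf).mp hcost
  -- replace by f
  have e1 : ∫⁻ x in K, ENNReal.ofReal (‖x - T x‖ ^ 2) = ∫⁻ x in K, ENNReal.ofReal (‖f x‖ ^ 2) := by
    apply lintegral_congr_ae
    filter_upwards [hf] with x hx
    rw [hx]
  have e2 : ∫⁻ x in K, ENNReal.ofReal (‖x - D x - T x‖ ^ 2) =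
      ∫⁻ x in K, ENNReal.ofReal (‖f x - D x‖ ^ 2) := by
    apply lintegral_congr_ae
    filter_upwards [hf] with x hx
    rw [hx]
    congr 3
    abel
  rw [e1, e2] at hcost2
  have i1 : Integrable (fun x => ‖f x‖ ^ 2) (volume.restrict K) := by
    apply Integrable.of_bound (hfm.norm.pow_const 2).aestronglyMeasurable (M ^ 2)
    filter_upwards with x
    rw [Real.norm_of_nonneg (by positivity)]
    exact pow_le_pow_left₀ (norm_nonneg _) (hfM x) 2
  have i2 : Integrable (fun x => ‖f x - D x‖ ^ 2) (volume.restrict K) := by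
    apply Integrable.of_bound ((hfm.sub hDm).norm.pow_const 2).aestronglyMeasurable ((M + MD) ^ 2)
    filter_upwards with x
    rw [Real.norm_of_nonneg (by positivity)]
    exact pow_le_pow_left₀ (norm_nonneg _)
      ((norm_sub_le _ _).trans (add_le_add (hfM x) (hDM x))) 2
  rw [← ofReal_integral_eq_lintegral_ofReal i1 (Filter.Eventually.of_forall fun x => by positivity),
    ← ofReal_integral_eq_lintegral_ofReal i2 (Filter.Eventually.of_forall fun x => by positivity),
    ENNReal.ofReal_le_ofReal_iff (integral_nonneg fun x => by positivity)] at hcost2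
  -- expand the square
  have hexp : ∀ x, 2 * inner ℝ (f x) (D x) - ‖D x‖ ^ 2 = ‖f x‖ ^ 2 - ‖f x - D x‖ ^ 2 := by
    intro x
    rw [norm_sub_sq_real]
    ring
  have hle : ∫ x in K, (2 * inner ℝ (f x) (D x) - ‖D x‖ ^ 2) ≤ 0 := by
    simp_rw [hexp]
    rw [integral_sub i1 i2]
    linarith
  -- compute the integral
  have hgi : ∀ i : Fin (n + 1), IntegrableOn
      (fun u => 2 * inner ℝ (f u) (w (i + 1) - w i) - ‖w (i + 1) - w i‖ ^ 2)
      (closedBall (w (i + 1)) δ) := by
    intro i
    have hfinB : IsFiniteMeasure (volume.restrict (closedBall (w (i + 1)) δ)) :=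
      ⟨by rw [Measure.restrict_apply_univ]; exact measure_closedBall_lt_top⟩
    apply Integrable.of_bound
      (((hfm.inner measurable_const).const_mul 2).sub measurable_const).aestronglyMeasurable
      (2 * (M * ‖w (i + 1) - w i‖) + ‖w (i + 1) - w i‖ ^ 2)
    filter_upwards with x
    refine (norm_sub_le _ _).trans ?_
    rw [Real.norm_of_nonneg (by positivity : (0:ℝ) ≤ ‖w (i + 1) - w i‖ ^ 2), norm_mul]
    have h1 : ‖inner ℝ (f x) (w (i + 1) - w i)‖ ≤ M * ‖w (i + 1) - w i‖ :=
      (norm_inner_le_norm _ _).trans (mul_le_mul_of_nonneg_right (hfM x) (norm_nonneg _))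
    have h2 : ‖(2 : ℝ)‖ = 2 := by norm_num
    rw [h2]
    linarith
  have hfi : ∀ i : Fin (n + 1), IntegrableOn f (closedBall (w (i + 1)) δ) := by
    intro i
    have hfinB : IsFiniteMeasure (volume.restrict (closedBall (w (i + 1)) δ)) :=
      ⟨by rw [Measure.restrict_apply_univ]; exact measure_closedBall_lt_top⟩
    exact Integrable.of_bound hfm.aestronglyMeasurable M (Filter.Eventually.of_forall hfM)
  have hcomp : ∫ x in K, (2 * inner ℝ (f x) (D x) - ‖D x‖ ^ 2) =
      ∑ i, (2 * inner ℝ (∫ u in closedBall (w (i + 1)) δ, f u) (w (i + 1) - w i)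
      - (volume (closedBall (w (i + 1)) δ)).toReal * ‖w (i + 1) - w i‖ ^ 2) := by
    simp_rw [hD, dispBack_pointwise w δ hdisj f]
    rw [integral_finsetSum]
    · apply Finset.sum_congr rfl
      intro i _
      rw [setIntegral_indicator measurableSet_closedBall,
        inter_eq_self_of_subset_right (hK (i + 1))]
      have hfinB : IsFiniteMeasure (volume.restrict (closedBall (w (i + 1)) δ)) :=
        ⟨by rw [Measure.restrict_apply_univ]; exact measure_closedBall_lt_top⟩
      have hin : Integrable (fun u => inner ℝ (f u) (w (i + 1) - w i))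
          (volume.restrict (closedBall (w (i + 1)) δ)) := (hfi i).inner_const _
      have hinn : ∫ u in closedBall (w (i + 1)) δ, inner ℝ (f u) (w (i + 1) - w i) =
          inner ℝ (∫ u in closedBall (w (i + 1)) δ, f u) (w (i + 1) - w i) := by
        rw [real_inner_comm, ← integral_inner (hfi i)]
        apply integral_congr_ae
        filter_upwards with u
        exact real_inner_comm _ _
      rw [integral_sub (hin.const_mul 2) (integrable_const _), integral_const_mul, hinn]
      simp [Measure.real]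
    · intro i _
      have := (hgi i).integrable_indicator measurableSet_closedBall
      exact this.integrableOn
  rw [← hcomp]
  exact hle

end Vale.Agent.P074.Lower
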